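import Vale.Agent.Lib.P154.Q4.Inv

/-!
The arithmetic-geometric mean bound for the mixed cubic term.
-/

namespace Vale.Agent.Lib.P154.Q4

theorem amgm (a b c x y z : ℝ) :
    0 ≤ inE a b c * inI x y z + inI a b c * inE x y z - 18 * inY a b c * inY x y z := by
  have h : inE a b c * inI x y z + inI a b c * inE x y z - 18 * inY a b c * inY x y z
      = (b*c*x - a*y*z)^2 + (a*c*y - b*x*z)^2 + (a*b*z - c*x*y)^2
      + (b*c*y - a*x*z)^2 + (a*c*z - b*x*y)^2 + (a*b*x - c*y*z)^2
      + (b*c*z - a*x*y)^2 + (a*c*x - b*y*z)^2 + (a*b*y - c*x*z)^2 := by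
    simp only [inE, inI, inY]
    ring
  rw [h]
  positivity

/-- The scaled form used by the certificates. -/
theorem amgm_scaled (a b c x y z l : ℝ) :
    0 ≤ inE a b c * (l ^ 2 * inI x y z) + inI a b c * (l ^ 4 * inE x y z)
      - 18 * inY a b c * (l ^ 3 * inY x y z) := by
  have h := amgm a b c (l * x) (l * y) (l * z)
  have e1 : inI (l * x) (l * y) (l * z) = l ^ 2 * inI x y z := by simp only [inI]; ring
  have e2 : inE (l * x) (l * y) (l * z) = l ^ 4 * inE x y z := by simp only [inE]; ring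
  have e3 : inY (l * x) (l * y) (l * z) = l ^ 3 * inY x y z := by simp only [inY]; ring
  rw [e1, e2, e3] at h
  linarith

end Vale.Agent.Lib.P154.Q4
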