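import Mathlib

/-!
A flat bilinear positivity principle: coefficient tables of polynomials, given as integer lists
against a list of nonnegative monomials, and a check run by the kernel that a sum of products has
nonnegative coefficients.
-/

noncomputable section

namespace Vale.Agent.Lib.P154.Q4

/-- Pairing of an integer vector with a real vector. -/
def dotR : List Int → List ℝ → ℝ
  | a :: as, r :: rs => (a : ℝ) * r + dotR as rs
  | _, _ => 0

/-- Integer pairing of two vectors. -/
def dotZ : List Int → List Int → Int
  | a :: as, b :: bs => Int.add (Int.mul a b) (dotZ as bs)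
  | _, _ => 0

/-- Entrywise cons of zero onto a table. -/
def consL : List (List Int) → List (List Int)
  | [] => []
  | u :: us => ((0 : Int) :: u) :: consL us

/-- Entrywise cons of a coefficient list onto a table, padding the shorter with zeros. -/
def consF : List Int → List (List Int) → List (List Int)
  | [], T => consL T
  | a :: as, [] => [a] :: consF as []
  | a :: as, u :: us => (a :: u) :: consF as us

/-- The transposed table of a list of rows. -/
def stackF : List (List Int) → List (List Int)
  | [] => []
  | a :: as => consF a (stackF as)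

/-- Pairing of a list of objects with a real vector. -/
def lev {α : Type} (ev : α → ℝ) : List α → List ℝ → ℝ
  | a :: as, r :: rs => ev a * r + lev ev as rs
  | _, _ => 0

theorem dotR_nil_left (w : List ℝ) : dotR [] w = 0 := by
  cases w <;> simp [dotR]

theorem dotR_nil_right (u : List Int) : dotR u [] = 0 := by
  cases u <;> simp [dotR]

theorem dotZ_nil_left (u : List Int) : dotZ [] u = 0 := by
  simp [dotZ]

theorem dotZ_nil_right (u : List Int) : dotZ u [] = 0 := by
  cases u <;> simp [dotZ]

theorem lev_nil_left {α : Type} (ev : α → ℝ) (V : List ℝ) : lev ev [] V = 0 := by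
  cases V <;> simp [lev]

theorem lev_nil_right {α : Type} (ev : α → ℝ) (l : List α) : lev ev l [] = 0 := by
  cases l <;> simp [lev]

theorem lev_consL (g g' : List Int → ℝ) (hg0 : ∀ u, g' ((0 : Int) :: u) = g u)
    (T : List (List Int)) (V : List ℝ) : lev g' (consL T) V = lev g T V := by
  induction T generalizing V with
  | nil => simp [consL, lev_nil_left]
  | cons u us ih =>
    cases V with
    | nil => simp [lev_nil_right]
    | cons r rs => simp only [consL, lev, hg0, ih]

/-- Evaluation of a stacked table. -/
theorem lev_consF (g g' : List Int → ℝ) (c : Int → ℝ)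
    (hg : ∀ a u, g' (a :: u) = c a + g u) (hg0 : ∀ u, g' ((0 : Int) :: u) = g u)
    (hnil : g [] = 0)
    (a : List Int) (T : List (List Int)) (V : List ℝ) :
    lev g' (consF a T) V = lev (fun x => x) (a.map c) V + lev g T V := by
  induction a generalizing T V with
  | nil =>
    simp only [consF, List.map_nil, lev_nil_left, zero_add]
    exact lev_consL g g' hg0 T V
  | cons b bs ih =>
    cases V with
    | nil => simp [lev_nil_right]
    | cons r rs =>
      cases T with
      | nil =>
        simp only [consF, lev, List.map_cons, hg, hnil, ih]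
        ring
      | cons u us =>
        simp only [consF, lev, List.map_cons, hg, ih]
        ring

theorem lev_map_dotR (r : ℝ) (a : List Int) (V : List ℝ) :
    lev (fun x => x) (a.map (fun b : Int => (b : ℝ) * r)) V = dotR a V * r := by
  induction a generalizing V with
  | nil => simp [lev_nil_left, dotR_nil_left]
  | cons b bs ih =>
    cases V with
    | nil => simp [lev_nil_right, dotR_nil_right]
    | cons s ss =>
      simp only [List.map_cons, lev, dotR, ih]
      ring

theorem lev_map_dotR' (k : Int) (a : List Int) (V : List ℝ) :
    lev (fun x => x) (a.map (fun b : Int => (k : ℝ) * (b : ℝ))) V = dotR a V * k := by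
  have : (fun b : Int => (k : ℝ) * (b : ℝ)) = (fun b : Int => (b : ℝ) * (k : ℝ)) := by
    funext b; ring
  rw [this, lev_map_dotR]

/-- The sum of products of two lists of reals. -/
def sumProd : List ℝ → List ℝ → ℝ
  | a :: as, r :: rs => a * r + sumProd as rs
  | _, _ => 0

theorem lev_zero {α : Type} (ev : α → ℝ) (h : ∀ a, ev a = 0) (l : List α) (V : List ℝ) :
    lev ev l V = 0 := by
  induction l generalizing V with
  | nil => simp [lev_nil_left]
  | cons a as ih =>
    cases V with
    | nil => simp [lev_nil_right]
    | cons r rs => simp [lev, h, ih]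

theorem lev_stackF_dotR (R : List (List Int)) (w V : List ℝ) :
    lev (fun u => dotR u w) (stackF R) V = sumProd (R.map (fun a => dotR a V)) w := by
  induction R generalizing w with
  | nil => simp [stackF, lev_nil_left, sumProd]
  | cons a as ih =>
    cases w with
    | nil =>
      have h0 : lev (fun u => dotR u []) (stackF (a :: as)) V = 0 :=
        lev_zero _ (fun u => dotR_nil_right u) _ _
      simp [h0, sumProd]
    | cons r rs =>
      simp only [stackF, List.map_cons, sumProd]
      rw [lev_consF (fun u => dotR u rs) (fun u => dotR u (r :: rs)) (fun b : Int => (b : ℝ) * r)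
        (fun a u => by simp [dotR]) (fun u => by simp [dotR])
        (by simp [dotR_nil_left]), lev_map_dotR, ih]

theorem lev_stackF_dotZ (G : List (List Int)) (u : List Int) (W : List ℝ) :
    lev (fun v => ((dotZ u v : Int) : ℝ)) (stackF G) W = dotR u (G.map (fun a => dotR a W)) := by
  induction G generalizing u with
  | nil => simp [stackF, lev_nil_left, dotR_nil_right]
  | cons a as ih =>
    cases u with
    | nil =>
      have h0 : lev (fun v => ((dotZ [] v : Int) : ℝ)) (stackF (a :: as)) W = 0 :=
        lev_zero _ (fun u => by simp [dotZ_nil_left]) _ _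
      simp [h0, dotR_nil_left]
    | cons k ks =>
      simp only [stackF, List.map_cons, dotR]
      rw [lev_consF (fun v => ((dotZ ks v : Int) : ℝ)) (fun v => ((dotZ (k :: ks) v : Int) : ℝ))
        (fun b : Int => (k : ℝ) * (b : ℝ))
        (fun a u => by simp [dotZ, Int.add_def, Int.mul_def])
        (fun u => by simp [dotZ, Int.add_def, Int.mul_def])
        (by simp [dotZ_nil_right]), lev_map_dotR', ih]
      ring

theorem lev_nonneg {α : Type} (ev : α → ℝ) (l : List α) (V : List ℝ)
    (hl : ∀ a ∈ l, 0 ≤ ev a) (hV : ∀ r ∈ V, 0 ≤ r) : 0 ≤ lev ev l V := by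
  induction l generalizing V with
  | nil => simp [lev_nil_left]
  | cons a as ih =>
    cases V with
    | nil => simp [lev_nil_right]
    | cons r rs =>
      simp only [lev]
      have h1 := hl a (by simp)
      have h2 := hV r (by simp)
      have h3 := ih rs (fun b hb => hl b (by simp [hb])) (fun s hs => hV s (by simp [hs]))
      positivity

/-- Nonnegativity test for an integer. -/
def nonnegB : Int → Bool
  | Int.ofNat _ => true
  | Int.negSucc _ => false

theorem nonnegB_spec (z : Int) (h : nonnegB z = true) : (0 : ℝ) ≤ (z : ℝ) := by
  cases z with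
  | ofNat n => simp
  | negSucc n => simp [nonnegB] at h

/-- The check run by the kernel, on transposed tables. -/
def allChk (TM TG : List (List Int)) : Bool :=
  TM.all (fun u => TG.all (fun v => nonnegB (dotZ u v)))

/-- The bilinear positivity principle. -/
theorem bilin_nonneg (Ms Gs TM TG : List (List Int)) (hM : stackF Ms = TM) (hG : stackF Gs = TG)
    (hc : allChk TM TG = true) (V W : List ℝ) (hV : ∀ r ∈ V, 0 ≤ r) (hW : ∀ r ∈ W, 0 ≤ r) :
    0 ≤ sumProd (Ms.map (fun a => dotR a V)) (Gs.map (fun a => dotR a W)) := by
  rw [← lev_stackF_dotR, hM]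
  apply lev_nonneg _ _ _ _ hV
  intro u hu
  rw [← lev_stackF_dotZ, hG]
  apply lev_nonneg _ _ _ _ hW
  intro v hv
  have h1 := List.all_eq_true.1 hc u hu
  have h2 := List.all_eq_true.1 h1 v hv
  exact nonnegB_spec _ h2

/-- A monomial in four variables. -/
def mon (x1 x2 x3 x4 : ℝ) (e : Nat × Nat × Nat × Nat) : ℝ :=
  x1 ^ e.1 * x2 ^ e.2.1 * x3 ^ e.2.2.1 * x4 ^ e.2.2.2

theorem monsL_nonneg (x1 x2 x3 x4 : ℝ) (h1 : 0 ≤ x1) (h2 : 0 ≤ x2) (h3 : 0 ≤ x3) (h4 : 0 ≤ x4)
    (L : List (Nat × Nat × Nat × Nat)) : ∀ r ∈ L.map (mon x1 x2 x3 x4), 0 ≤ r := by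
  intro r hr
  obtain ⟨e, _, rfl⟩ := List.mem_map.1 hr
  simp only [mon]
  positivity

/-- Integer linear combinations of rows. -/
def addF : List Int → List Int → List Int
  | a :: as, b :: bs => Int.add a b :: addF as bs
  | [], bs => bs
  | as, [] => as

/-- The linear combination of a list of rows. -/
def linF : List (Int × List Int) → List Int
  | [] => []
  | p :: ps => addF (p.2.map (Int.mul p.1)) (linF ps)

theorem dotR_addF (a b : List Int) (V : List ℝ) :
    dotR (addF a b) V = dotR a V + dotR b V := by
  induction a generalizing b V with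
  | nil => simp [addF, dotR_nil_left]
  | cons x xs ih =>
    cases b with
    | nil => simp [addF, dotR_nil_left]
    | cons y ys =>
      cases V with
      | nil => simp [dotR_nil_right]
      | cons r rs =>
        simp only [addF, dotR, ih]
        simp only [Int.add_def, Int.cast_add]
        ring

theorem dotR_map_mul (k : Int) (a : List Int) (V : List ℝ) :
    dotR (a.map (Int.mul k)) V = (k : ℝ) * dotR a V := by
  induction a generalizing V with
  | nil => simp [dotR_nil_left]
  | cons x xs ih =>
    cases V with
    | nil => simp [dotR_nil_right]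
    | cons r rs =>
      simp only [List.map_cons, dotR, ih]
      simp only [Int.mul_def, Int.cast_mul]
      ring

theorem dotR_linF_cons (k : Int) (f : List Int) (L : List (Int × List Int)) (V : List ℝ) :
    dotR (linF ((k, f) :: L)) V = (k : ℝ) * dotR f V + dotR (linF L) V := by
  simp only [linF, dotR_addF, dotR_map_mul]

theorem dotR_linF_nil (V : List ℝ) : dotR (linF []) V = 0 := by
  simp [linF, dotR_nil_left]

end Vale.Agent.Lib.P154.Q4
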