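import Vale.Agent.Lib.P154.Q4.Dhat2

/-!
The polynomial inequality on the whole simplex, by sorting the coordinates.
-/

noncomputable section

namespace Vale.Agent.Lib.P154.Q4

/-- The Fourier coordinates of a quadruple. -/
def fo1 (p : Fin 4 → ℝ) : ℝ := p 0 + p 1 - p 2 - p 3
def fo2 (p : Fin 4 → ℝ) : ℝ := p 0 - p 1 + p 2 - p 3
def fo3 (p : Fin 4 → ℝ) : ℝ := p 0 - p 1 - p 2 + p 3

theorem inI_fo (p : Fin 4 → ℝ) (hs : ∑ i, p i = 1) :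
    inI (fo1 p) (fo2 p) (fo3 p) = (1 / 4) * ∑ i, (4 * p i - 1) ^ 2 := by
  rw [Fin.sum_univ_four] at hs ⊢
  have h3 : p 3 = 1 - p 0 - p 1 - p 2 := by linarith
  simp only [inI, fo1, fo2, fo3, h3]
  ring

theorem inY_fo (p : Fin 4 → ℝ) (hs : ∑ i, p i = 1) :
    inY (fo1 p) (fo2 p) (fo3 p) = (1 / 24) * ∑ i, (4 * p i - 1) ^ 3 := by
  rw [Fin.sum_univ_four] at hs ⊢
  have h3 : p 3 = 1 - p 0 - p 1 - p 2 := by linarith
  simp only [inY, fo1, fo2, fo3, h3]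
  ring

theorem inE_fo (p : Fin 4 → ℝ) (hs : ∑ i, p i = 1) :
    inE (fo1 p) (fo2 p) (fo3 p)
      = (1 / 16) * (∑ i, (4 * p i - 1) ^ 4 - (1 / 4) * (∑ i, (4 * p i - 1) ^ 2) ^ 2) := by
  simp only [Fin.sum_univ_four] at hs ⊢
  have h3 : p 3 = 1 - p 0 - p 1 - p 2 := by linarith
  simp only [inE, fo1, fo2, fo3, h3]
  ring

theorem sum_comp_perm (f : ℝ → ℝ) (p : Fin 4 → ℝ) (σ : Equiv.Perm (Fin 4)) :
    ∑ i, f (p (σ i)) = ∑ i, f (p i) :=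
  Equiv.sum_comp σ (fun i => f (p i))

theorem inI_comp (p : Fin 4 → ℝ) (hs : ∑ i, p i = 1) (σ : Equiv.Perm (Fin 4)) :
    inI (fo1 (p ∘ σ)) (fo2 (p ∘ σ)) (fo3 (p ∘ σ)) = inI (fo1 p) (fo2 p) (fo3 p) := by
  have hs' : ∑ i, (p ∘ σ) i = 1 := by
    rw [← hs]; exact Equiv.sum_comp σ p
  rw [inI_fo _ hs', inI_fo _ hs]
  congr 1
  exact sum_comp_perm (fun x => (4 * x - 1) ^ 2) p σ

theorem inY_comp (p : Fin 4 → ℝ) (hs : ∑ i, p i = 1) (σ : Equiv.Perm (Fin 4)) :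
    inY (fo1 (p ∘ σ)) (fo2 (p ∘ σ)) (fo3 (p ∘ σ)) = inY (fo1 p) (fo2 p) (fo3 p) := by
  have hs' : ∑ i, (p ∘ σ) i = 1 := by
    rw [← hs]; exact Equiv.sum_comp σ p
  rw [inY_fo _ hs', inY_fo _ hs]
  congr 1
  exact sum_comp_perm (fun x => (4 * x - 1) ^ 3) p σ

theorem inE_comp (p : Fin 4 → ℝ) (hs : ∑ i, p i = 1) (σ : Equiv.Perm (Fin 4)) :
    inE (fo1 (p ∘ σ)) (fo2 (p ∘ σ)) (fo3 (p ∘ σ)) = inE (fo1 p) (fo2 p) (fo3 p) := by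
  have hs' : ∑ i, (p ∘ σ) i = 1 := by
    rw [← hs]; exact Equiv.sum_comp σ p
  rw [inE_fo _ hs', inE_fo _ hs]
  have e1 : ∑ i, (4 * (p ∘ σ) i - 1) ^ 4 = ∑ i, (4 * p i - 1) ^ 4 :=
    sum_comp_perm (fun x => (4 * x - 1) ^ 4) p σ
  have e2 : ∑ i, (4 * (p ∘ σ) i - 1) ^ 2 = ∑ i, (4 * p i - 1) ^ 2 :=
    sum_comp_perm (fun x => (4 * x - 1) ^ 2) p σ
  rw [e1, e2]

/-- A permutation sorting a quadruple in decreasing order. -/
theorem exists_sort (p : Fin 4 → ℝ) :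
    ∃ σ : Equiv.Perm (Fin 4), p (σ 1) ≤ p (σ 0) ∧ p (σ 2) ≤ p (σ 1) ∧ p (σ 3) ≤ p (σ 2) := by
  have h := Tuple.monotone_sort (fun i => - p i)
  refine ⟨Tuple.sort (fun i => - p i), ?_, ?_, ?_⟩
  · have := h (show (0 : Fin 4) ≤ 1 by decide)
    simpa using this
  · have := h (show (1 : Fin 4) ≤ 2 by decide)
    simpa using this
  · have := h (show (2 : Fin 4) ≤ 3 by decide)
    simpa using this

/-- The inequality on the simplex. -/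
theorem c2_all (p r : Fin 4 → ℝ) (hp : ∀ i, 0 ≤ p i) (hps : ∑ i, p i = 1)
    (hr : ∀ i, 0 ≤ r i) (hrs : ∑ i, r i = 1) :
    0 ≤ Dtilc2 (inI (fo1 p) (fo2 p) (fo3 p)) (inY (fo1 p) (fo2 p) (fo3 p))
        (inE (fo1 p) (fo2 p) (fo3 p))
        ((1 / 4) * inI (fo1 r) (fo2 r) (fo3 r)) ((1 / 8) * inY (fo1 r) (fo2 r) (fo3 r))
        ((1 / 16) * inE (fo1 r) (fo2 r) (fo3 r))
      - (1 / 100) * inI (fo1 p) (fo2 p) (fo3 p) * ((1 / 4) * inI (fo1 r) (fo2 r) (fo3 r)) ^ 2 := by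
  obtain ⟨σ, h1, h2, h3⟩ := exists_sort p
  obtain ⟨τ, k1, k2, k3⟩ := exists_sort r
  have hps' := hps
  have hrs' := hrs
  rw [Fin.sum_univ_four] at hps' hrs'
  have hp1 : ∑ i, p (σ i) = 1 := by rw [← hps]; exact Equiv.sum_comp σ p
  have hr1 : ∑ i, r (τ i) = 1 := by rw [← hrs]; exact Equiv.sum_comp τ r
  rw [Fin.sum_univ_four] at hp1 hr1
  have key := c2_sorted (p (σ 0) - p (σ 1)) (p (σ 1) - p (σ 2)) (p (σ 2) - p (σ 3)) (p (σ 3))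
    (r (τ 0) - r (τ 1)) (r (τ 1) - r (τ 2)) (r (τ 2) - r (τ 3)) (r (τ 3))
    (by linarith) (by linarith) (by linarith) (hp _) (by linarith) (by linarith) (by linarith) (hr _)
    (by linarith) (by linarith)
  have e1 : ∀ (f : Fin 4 → ℝ), (f 0 - f 1) + 2 * (f 1 - f 2) + (f 2 - f 3) = fo1 f := by
    intro f; unfold fo1; ring
  have e2 : ∀ (f : Fin 4 → ℝ), (f 0 - f 1) + (f 2 - f 3) = fo2 f := by
    intro f; unfold fo2; ring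
  have e3 : ∀ (f : Fin 4 → ℝ), (f 0 - f 1) - (f 2 - f 3) = fo3 f := by
    intro f; unfold fo3; ring
  have ep1 := e1 (p ∘ σ)
  have ep2 := e2 (p ∘ σ)
  have ep3 := e3 (p ∘ σ)
  have er1 := e1 (r ∘ τ)
  have er2 := e2 (r ∘ τ)
  have er3 := e3 (r ∘ τ)
  simp only [Function.comp_apply] at ep1 ep2 ep3 er1 er2 er3
  rw [ep1, ep2, ep3, er1, er2, er3, inI_comp p hps σ, inY_comp p hps σ, inE_comp p hps σ,
    inI_comp r hrs τ, inY_comp r hrs τ, inE_comp r hrs τ] at key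
  exact key

end Vale.Agent.Lib.P154.Q4
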