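import Vale.Agent.Lib.P154.Q4.Log4

/-!
The mean pairwise relative entropy of a family of likelihood vectors: exact additivity under
products, behaviour under the channel, and the recursion for powers.
-/

noncomputable section

open Finset

namespace Vale.Agent.Lib.P154.Q4

/-- The pairwise relative entropy functional of a vector. -/
def Jt (x : Fin 4 → ℝ) : ℝ := (1 / 4) * ∑ i, (x i - nN x) * Real.log (x i)

def u0 (x : Fin 4 → ℝ) : ℝ := fA x + fB x + fC x
def u1 (x : Fin 4 → ℝ) : ℝ := fA x - fB x - fC x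
def u2 (x : Fin 4 → ℝ) : ℝ := -fA x + fB x - fC x
def u3 (x : Fin 4 → ℝ) : ℝ := -fA x - fB x + fC x

theorem nN_pos_of_pos {x : Fin 4 → ℝ} (h : ∀ i, 0 < x i) : 0 < nN x := by
  have := tot4_pos_of_pos h
  unfold nN; positivity

theorem u_gt {x : Fin 4 → ℝ} (h : ∀ i, 0 < x i) :
    -1 < u0 x ∧ -1 < u1 x ∧ -1 < u2 x ∧ -1 < u3 x := by
  have hT := tot4_pos_of_pos h
  have hN := nN_pos_of_pos h
  have r0 := repr0 hT.ne'
  have r1 := repr1 hT.ne'
  have r2 := repr2 hT.ne'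
  have r3 := repr3 hT.ne'
  have h0 := h 0
  have h1 := h 1
  have h2 := h 2
  have h3 := h 3
  rw [← r0] at h0
  rw [← r1] at h1
  rw [← r2] at h2
  rw [← r3] at h3
  have a0 := (mul_pos_iff_of_pos_left hN).1 h0
  have a1 := (mul_pos_iff_of_pos_left hN).1 h1
  have a2 := (mul_pos_iff_of_pos_left hN).1 h2
  have a3 := (mul_pos_iff_of_pos_left hN).1 h3
  unfold u0 u1 u2 u3
  refine ⟨by linarith, by linarith, by linarith, by linarith⟩

theorem Jt_gg {x : Fin 4 → ℝ} (h : ∀ i, 0 < x i) :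
    Jt x - (F4 x - nN x) = (nN x / 4) * (gg (u0 x) + gg (u1 x) + gg (u2 x) + gg (u3 x)) := by
  have hT := tot4_pos_of_pos h
  have hN := nN_pos_of_pos h
  have r0 := repr0 hT.ne'
  have r1 := repr1 hT.ne'
  have r2 := repr2 hT.ne'
  have r3 := repr3 hT.ne'
  obtain ⟨g0, g1, g2, g3⟩ := u_gt h
  have p0 : 1 + u0 x ≠ 0 := by linarith
  have p1 : 1 + u1 x ≠ 0 := by linarith
  have p2 : 1 + u2 x ≠ 0 := by linarith
  have p3 : 1 + u3 x ≠ 0 := by linarith
  have l0 : Real.log (x 0) = Real.log (nN x) + Real.log (1 + u0 x) := by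
    rw [← Real.log_mul hN.ne' p0, ← r0]; congr 1; unfold u0; ring
  have l1 : Real.log (x 1) = Real.log (nN x) + Real.log (1 + u1 x) := by
    rw [← Real.log_mul hN.ne' p1, ← r1]; congr 1; unfold u1; ring
  have l2 : Real.log (x 2) = Real.log (nN x) + Real.log (1 + u2 x) := by
    rw [← Real.log_mul hN.ne' p2, ← r2]; congr 1; unfold u2; ring
  have l3 : Real.log (x 3) = Real.log (nN x) + Real.log (1 + u3 x) := by
    rw [← Real.log_mul hN.ne' p3, ← r3]; congr 1; unfold u3; ring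
  have e0 : x 0 - nN x = nN x * u0 x := by rw [← r0]; unfold u0; ring
  have e1 : x 1 - nN x = nN x * u1 x := by rw [← r1]; unfold u1; ring
  have e2 : x 2 - nN x = nN x * u2 x := by rw [← r2]; unfold u2; ring
  have e3 : x 3 - nN x = nN x * u3 x := by rw [← r3]; unfold u3; ring
  unfold Jt gg
  rw [Fin.sum_univ_four, F4_eq hT, l0, l1, l2, l3, e0, e1, e2, e3]
  generalize Real.log (1 + u0 x) = L0
  generalize Real.log (1 + u1 x) = L1
  generalize Real.log (1 + u2 x) = L2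
  generalize Real.log (1 + u3 x) = L3
  generalize Real.log (nN x) = L
  unfold cI inI u0 u1 u2 u3
  ring

theorem cc_eq (x : Fin 4 → ℝ) :
    cc x = (1 / 3) * (gttc2 (u0 x) + gttc2 (u1 x) + gttc2 (u2 x) + gttc2 (u3 x)) := by
  unfold cc cI cY cE u0 u1 u2 u3
  rw [← cInvc2_eq]

theorem cc_le {x : Fin 4 → ℝ} (h : ∀ i, 0 < x i) :
    nN x * cc x ≤ (4 / 3) * (Jt x - (F4 x - nN x)) := by
  have hN := nN_pos_of_pos h
  obtain ⟨g0, g1, g2, g3⟩ := u_gt h
  rw [Jt_gg h, cc_eq]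
  have b0 := gtt_le_gg g0
  have b1 := gtt_le_gg g1
  have b2 := gtt_le_gg g2
  have b3 := gtt_le_gg g3
  have : nN x * ((1 / 3) * (gttc2 (u0 x) + gttc2 (u1 x) + gttc2 (u2 x) + gttc2 (u3 x)))
      ≤ nN x * ((1 / 3) * (gg (u0 x) + gg (u1 x) + gg (u2 x) + gg (u3 x))) :=
    mul_le_mul_of_nonneg_left (by linarith) hN.le
  refine this.trans (le_of_eq ?_)
  ring

/-! ### The channel on one vector -/

/-- The channel on a likelihood vector. -/
def chan4 (lam : ℝ) (x : Fin 4 → ℝ) : Fin 4 → ℝ := fun i => lam * x i + (1 - lam) * nN x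

theorem tot4_chan (lam : ℝ) (x : Fin 4 → ℝ) : tot4 (chan4 lam x) = tot4 x := by
  unfold tot4 chan4 nN tot4; ring

theorem nN_chan (lam : ℝ) (x : Fin 4 → ℝ) : nN (chan4 lam x) = nN x := by
  unfold nN; rw [tot4_chan]

theorem fA_chan (lam : ℝ) (x : Fin 4 → ℝ) : fA (chan4 lam x) = lam * fA x := by
  unfold fA; rw [tot4_chan]; unfold chan4; ring

theorem fB_chan (lam : ℝ) (x : Fin 4 → ℝ) : fB (chan4 lam x) = lam * fB x := by
  unfold fB; rw [tot4_chan]; unfold chan4; ring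

theorem fC_chan (lam : ℝ) (x : Fin 4 → ℝ) : fC (chan4 lam x) = lam * fC x := by
  unfold fC; rw [tot4_chan]; unfold chan4; ring

theorem cI_chan (lam : ℝ) (x : Fin 4 → ℝ) : cI (chan4 lam x) = lam ^ 2 * cI x := by
  unfold cI inI; rw [fA_chan, fB_chan, fC_chan]; ring

theorem cY_chan (lam : ℝ) (x : Fin 4 → ℝ) : cY (chan4 lam x) = lam ^ 3 * cY x := by
  unfold cY inY; rw [fA_chan, fB_chan, fC_chan]; ring

theorem cE_chan (lam : ℝ) (x : Fin 4 → ℝ) : cE (chan4 lam x) = lam ^ 4 * cE x := by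
  unfold cE inE; rw [fA_chan, fB_chan, fC_chan]; ring

theorem chan_pos {x : Fin 4 → ℝ} (h : ∀ i, 0 ≤ x i) (hT : 0 < tot4 x) {lam : ℝ} (h0 : 0 ≤ lam)
    (h1 : lam < 1) (i : Fin 4) : 0 < chan4 lam x i := by
  unfold chan4
  have hN : 0 < nN x := by unfold nN; positivity
  have t1 : 0 ≤ lam * x i := mul_nonneg h0 (h i)
  have t2 : 0 < (1 - lam) * nN x := mul_pos (by linarith) hN
  linarith

theorem F4_sub_chan {x : Fin 4 → ℝ} (hT : 0 < tot4 x) (lam : ℝ) :
    F4 (chan4 lam x) - nN (chan4 lam x) = lam ^ 2 * (F4 x - nN x) := by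
  have hT' : 0 < tot4 (chan4 lam x) := by rw [tot4_chan]; exact hT
  rw [F4_eq hT', F4_eq hT, nN_chan, cI_chan]
  ring

theorem Jt_chan_le {x : Fin 4 → ℝ} (h : ∀ i, 0 < x i) {lam : ℝ} (h0 : 0 ≤ lam) (h1 : lam < 1) :
    Jt (chan4 lam x) ≤ lam ^ 3 * Jt x + lam ^ 2 * (1 - lam) * (F4 x - nN x) := by
  have hT := tot4_pos_of_pos h
  have hN := nN_pos_of_pos h
  have hp : ∀ i, 0 < chan4 lam x i := chan_pos (fun i => (h i).le) hT h0 h1
  have e1 := Jt_gg hp
  have e2 := Jt_gg h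
  have s := F4_sub_chan hT lam
  obtain ⟨g0, g1, g2, g3⟩ := u_gt h
  have e_u0 : u0 (chan4 lam x) = lam * u0 x := by
    unfold u0; rw [fA_chan, fB_chan, fC_chan]; ring
  have e_u1 : u1 (chan4 lam x) = lam * u1 x := by
    unfold u1; rw [fA_chan, fB_chan, fC_chan]; ring
  have e_u2 : u2 (chan4 lam x) = lam * u2 x := by
    unfold u2; rw [fA_chan, fB_chan, fC_chan]; ring
  have e_u3 : u3 (chan4 lam x) = lam * u3 x := by
    unfold u3; rw [fA_chan, fB_chan, fC_chan]; ring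
  rw [nN_chan, e_u0, e_u1, e_u2, e_u3] at e1
  have b0 := gg_scale h0 h1.le g0
  have b1 := gg_scale h0 h1.le g1
  have b2 := gg_scale h0 h1.le g2
  have b3 := gg_scale h0 h1.le g3
  have t : (nN x / 4) * (gg (lam * u0 x) + gg (lam * u1 x) + gg (lam * u2 x) + gg (lam * u3 x))
      ≤ (nN x / 4) * (lam ^ 3 * (gg (u0 x) + gg (u1 x) + gg (u2 x) + gg (u3 x))) :=
    mul_le_mul_of_nonneg_left (by linarith) (by positivity)
  have t2 : (nN x / 4) * (lam ^ 3 * (gg (u0 x) + gg (u1 x) + gg (u2 x) + gg (u3 x)))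
      = lam ^ 3 * (Jt x - (F4 x - nN x)) := by
    rw [e2]; ring
  rw [nN_chan] at s
  nlinarith [e1, t, t2, s]

theorem ce_chan_eq (lam : ℝ) (x : Fin 4 → ℝ) :
    ce (chan4 lam x) = (1 / 24) * (gttc2 (2 * lam * u0 x) + gttc2 (2 * lam * u1 x)
      + gttc2 (2 * lam * u2 x) + gttc2 (2 * lam * u3 x)) := by
  unfold ce
  rw [cI_chan, cY_chan, cE_chan]
  have key := cInvc2_eq (2 * lam * fA x) (2 * lam * fB x) (2 * lam * fC x)
  have g1 : inI (2 * lam * fA x) (2 * lam * fB x) (2 * lam * fC x) = 4 * (lam ^ 2 * cI x) := by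
    unfold cI inI; ring
  have g2 : inY (2 * lam * fA x) (2 * lam * fB x) (2 * lam * fC x) = 8 * (lam ^ 3 * cY x) := by
    unfold cY inY; ring
  have g3 : inE (2 * lam * fA x) (2 * lam * fB x) (2 * lam * fC x) = 16 * (lam ^ 4 * cE x) := by
    unfold cE inE; ring
  rw [g1, g2, g3] at key
  rw [← key]
  have a0 : 2 * lam * u0 x = 2 * lam * fA x + 2 * lam * fB x + 2 * lam * fC x := by unfold u0; ring
  have a1 : 2 * lam * u1 x = 2 * lam * fA x - 2 * lam * fB x - 2 * lam * fC x := by unfold u1; ring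
  have a2 : 2 * lam * u2 x = -(2 * lam * fA x) + 2 * lam * fB x - 2 * lam * fC x := by
    unfold u2; ring
  have a3 : 2 * lam * u3 x = -(2 * lam * fA x) - 2 * lam * fB x + 2 * lam * fC x := by
    unfold u3; ring
  rw [a0, a1, a2, a3]
  ring

theorem ce_chan_le {x : Fin 4 → ℝ} (h : ∀ i, 0 < x i) {lam : ℝ} (h0 : 0 ≤ lam) (h1 : lam ≤ 1 / 2) :
    nN x * ce (chan4 lam x) ≤ (4 / 3) * lam ^ 3 * (Jt x - (F4 x - nN x)) := by
  have hN := nN_pos_of_pos h
  obtain ⟨g0, g1, g2, g3⟩ := u_gt h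
  rw [Jt_gg h, ce_chan_eq]
  have b0 := gtt_scale_le (s := 2 * lam) (by linarith) (by linarith) g0
  have b1 := gtt_scale_le (s := 2 * lam) (by linarith) (by linarith) g1
  have b2 := gtt_scale_le (s := 2 * lam) (by linarith) (by linarith) g2
  have b3 := gtt_scale_le (s := 2 * lam) (by linarith) (by linarith) g3
  have : nN x * ((1 / 24) * (gttc2 (2 * lam * u0 x) + gttc2 (2 * lam * u1 x)
      + gttc2 (2 * lam * u2 x) + gttc2 (2 * lam * u3 x)))
      ≤ nN x * ((1 / 24) * ((2 * lam) ^ 3 * (gg (u0 x) + gg (u1 x) + gg (u2 x) + gg (u3 x)))) :=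
    mul_le_mul_of_nonneg_left (by linarith) hN.le
  refine this.trans (le_of_eq ?_)
  ring

section signals

variable {ι κ : Type*} [Fintype ι] [Fintype κ]

/-- The Jeffreys functional of a family. -/
def bj (l : ι → Fin 4 → ℝ) : ℝ := ∑ t, Jt (l t)

/-- The channel on a family. -/
def chan (lam : ℝ) (l : ι → Fin 4 → ℝ) : ι → Fin 4 → ℝ := fun t => chan4 lam (l t)

theorem sum_F4_sub {l : ι → Fin 4 → ℝ} (h : WSig l) : ∑ t, (F4 (l t) - nN (l t)) = xx l := by
  rw [Finset.sum_sub_distrib, sum_nN h.tot]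
  rfl

theorem cc_sum_le {l : ι → Fin 4 → ℝ} (h : IsSig l) :
    ∑ t, nN (l t) * cc (l t) ≤ (4 / 3) * (bj l - xx l) := by
  have : ∑ t, nN (l t) * cc (l t) ≤ ∑ t, (4 / 3) * (Jt (l t) - (F4 (l t) - nN (l t))) :=
    Finset.sum_le_sum fun t _ => cc_le (h.pos t)
  rw [← Finset.mul_sum, Finset.sum_sub_distrib, sum_F4_sub h.toW] at this
  exact this

theorem chan_tot {l : ι → Fin 4 → ℝ} (tot : ∀ i, ∑ t, l t i = 1) (lam : ℝ) (i : Fin 4) :
    ∑ t, chan lam l t i = 1 := by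
  unfold chan chan4
  rw [Finset.sum_add_distrib, ← Finset.mul_sum, ← Finset.mul_sum, tot, sum_nN tot]
  ring

theorem chan_isSig {l : ι → Fin 4 → ℝ} (h : WSig l) {lam : ℝ} (h0 : 0 ≤ lam) (h1 : lam < 1) :
    IsSig (chan lam l) where
  pos := fun t i => chan_pos (h.nonneg t) (h.Npos t) h0 h1 i
  tot := chan_tot h.tot lam
  sym := fun σ => by
    obtain ⟨π, hπ⟩ := h.sym σ
    refine ⟨π, fun t i => ?_⟩
    unfold chan chan4
    have e : nN (l (π t)) = nN (l t) := by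
      unfold nN tot4
      rw [hπ, hπ, hπ, hπ]
      have := Equiv.sum_comp σ (fun j => l t j)
      rw [Fin.sum_univ_four, Fin.sum_univ_four] at this
      rw [this]
    rw [hπ, e]

theorem chan_flat {l : ι → Fin 4 → ℝ} (h : WSig l) {lam : ℝ} (h0 : 0 ≤ lam) (h1 : lam ≤ 1 / 2) :
    Flat (chan lam l) := by
  intro t i
  unfold chan
  rw [tot4_chan]
  unfold chan4
  have t1 : 0 ≤ lam * l t i := mul_nonneg h0 (h.nonneg t i)
  have hN := h.Npos t
  have t2 : (1 / 2) * nN (l t) ≤ (1 - lam) * nN (l t) :=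
    mul_le_mul_of_nonneg_right (by linarith) (by unfold nN; positivity)
  unfold nN at t2 ⊢
  linarith

theorem xx_chan {l : ι → Fin 4 → ℝ} (h : WSig l) {lam : ℝ} (h0 : 0 ≤ lam) (h1 : lam < 1) :
    xx (chan lam l) = lam ^ 2 * xx l := by
  have hS := (chan_isSig h h0 h1).toW
  rw [xx_eq hS, xx_eq h, Finset.mul_sum]
  refine Finset.sum_congr rfl fun t _ => ?_
  change nN (chan4 lam (l t)) * cI (chan4 lam (l t)) = _
  rw [nN_chan, cI_chan]
  ring

theorem bj_chan_le {l : ι → Fin 4 → ℝ} (h : IsSig l) {lam : ℝ} (h0 : 0 ≤ lam) (h1 : lam < 1) :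
    bj (chan lam l) ≤ lam ^ 3 * bj l + lam ^ 2 * (1 - lam) * xx l := by
  have : ∑ t, Jt (chan4 lam (l t)) ≤ ∑ t, (lam ^ 3 * Jt (l t) + lam ^ 2 * (1 - lam) * (F4 (l t) - nN (l t))) :=
    Finset.sum_le_sum fun t _ => Jt_chan_le (h.pos t) h0 h1
  rw [Finset.sum_add_distrib, ← Finset.mul_sum, ← Finset.mul_sum, sum_F4_sub h.toW] at this
  exact this

theorem ee_chan_le {l : ι → Fin 4 → ℝ} (h : IsSig l) {lam : ℝ} (h0 : 0 ≤ lam) (h1 : lam ≤ 1 / 2) :
    ee (chan lam l) ≤ (4 / 3) * lam ^ 3 * (bj l - xx l) := by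
  have : ∑ t, nN (chan lam l t) * ce (chan lam l t)
      ≤ ∑ t, (4 / 3) * lam ^ 3 * (Jt (l t) - (F4 (l t) - nN (l t))) := by
    refine Finset.sum_le_sum fun t _ => ?_
    change nN (chan4 lam (l t)) * ce (chan4 lam (l t)) ≤ _
    rw [nN_chan]
    exact ce_chan_le (h.pos t) h0 h1
  rw [← Finset.mul_sum, Finset.sum_sub_distrib, sum_F4_sub h.toW] at this
  exact this

/-! ### Products -/

theorem prodS_isSig {l : ι → Fin 4 → ℝ} {l' : κ → Fin 4 → ℝ} (h : IsSig l) (h' : IsSig l') :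
    IsSig (prodS l l') where
  pos := fun p i => mul_pos (h.pos _ _) (h'.pos _ _)
  tot := fun i => by
    unfold prodS
    rw [Fintype.sum_prod_type]
    simp only [← Finset.mul_sum, h'.tot, mul_one, h.tot]
  sym := fun σ => by
    obtain ⟨π, hπ⟩ := h.sym σ
    obtain ⟨π', hπ'⟩ := h'.sym σ
    refine ⟨Equiv.prodCongr π π', fun p i => ?_⟩
    unfold prodS
    simp only [Equiv.prodCongr_apply, Prod.map_fst, Prod.map_snd, hπ, hπ']

theorem nN_eq_sum (x : Fin 4 → ℝ) : nN x = (1 / 4) * ∑ j, x j := by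
  unfold nN tot4
  rw [Fin.sum_univ_four]
  ring

theorem sum_nN_prod_right {l' : κ → Fin 4 → ℝ} (tot : ∀ i, ∑ t, l' t i = 1) (x : Fin 4 → ℝ) :
    ∑ t', nN (fun i => x i * l' t' i) = nN x := by
  simp only [nN_eq_sum]
  rw [← Finset.mul_sum, Finset.sum_comm]
  simp only [← Finset.mul_sum, tot, mul_one]

theorem sum_nN_prod_left {l : ι → Fin 4 → ℝ} (tot : ∀ i, ∑ t, l t i = 1) (y : Fin 4 → ℝ) :
    ∑ t, nN (fun i => l t i * y i) = nN y := by
  simp only [nN_eq_sum]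
  rw [← Finset.mul_sum, Finset.sum_comm]
  simp only [← Finset.sum_mul, tot, one_mul]

/-- Exact additivity of the Jeffreys functional. -/
theorem bj_prodS {l : ι → Fin 4 → ℝ} {l' : κ → Fin 4 → ℝ} (h : IsSig l) (h' : IsSig l') :
    bj (prodS l l') = bj l + bj l' := by
  have pt : ∀ t t', Jt (prodS l l' (t, t'))
      = (1 / 4) * ∑ i, (l t i * l' t' i - nN (fun j => l t j * l' t' j)) * Real.log (l t i)
        + (1 / 4) * ∑ i, (l t i * l' t' i - nN (fun j => l t j * l' t' j)) * Real.log (l' t' i) := by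
    intro t t'
    unfold Jt prodS
    rw [← mul_add, ← Finset.sum_add_distrib]
    congr 1
    refine Finset.sum_congr rfl fun i _ => ?_
    rw [Real.log_mul (h.pos t i).ne' (h'.pos t' i).ne']
    ring
  unfold bj
  rw [Fintype.sum_prod_type]
  simp only [pt, Finset.sum_add_distrib]
  congr 1
  · refine Finset.sum_congr rfl fun t _ => ?_
    unfold Jt
    rw [← Finset.mul_sum, Finset.sum_comm]
    congr 1
    refine Finset.sum_congr rfl fun i _ => ?_
    rw [← Finset.sum_mul, Finset.sum_sub_distrib, ← Finset.mul_sum, h'.tot, mul_one,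
      sum_nN_prod_right h'.tot (l t)]
  · rw [Finset.sum_comm]
    refine Finset.sum_congr rfl fun t' _ => ?_
    unfold Jt
    rw [← Finset.mul_sum, Finset.sum_comm]
    congr 1
    refine Finset.sum_congr rfl fun i _ => ?_
    rw [← Finset.sum_mul, Finset.sum_sub_distrib, ← Finset.sum_mul, h.tot, one_mul,
      sum_nN_prod_left h.tot (l' t')]

theorem xx_prod_comm (l : ι → Fin 4 → ℝ) (l' : κ → Fin 4 → ℝ) :
    xx (prodS l l') = xx (prodS l' l) := by
  unfold xx prodS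
  congr 1
  rw [← Equiv.sum_comp (Equiv.prodComm ι κ)]
  refine Finset.sum_congr rfl fun p _ => ?_
  simp only [Equiv.prodComm_apply, Prod.fst_swap, Prod.snd_swap]
  congr 1
  funext i
  ring

/-- Monotonicity of the chi-square functional under products. -/
theorem xx_le_prod {l : ι → Fin 4 → ℝ} {l' : κ → Fin 4 → ℝ} (h : IsSig l) (h' : IsSig l') :
    xx l ≤ xx (prodS l l') := by
  rw [xx_prodS_eq]
  unfold xx
  have key : ∀ t, F4 (l t) ≤ ∑ t', F4r (l t 0 * l' t' 0) (l t 1 * l' t' 1) (l t 2 * l' t' 2)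
      (l t 3 * l' t' 3) := by
    intro t
    have hA : ∀ t', 0 < l t 0 * l' t' 0 + l t 1 * l' t' 1 + l t 2 * l' t' 2 + l t 3 * l' t' 3 := by
      intro t'
      have a0 := mul_pos (h.pos t 0) (h'.pos t' 0)
      have a1 := mul_pos (h.pos t 1) (h'.pos t' 1)
      have a2 := mul_pos (h.pos t 2) (h'.pos t' 2)
      have a3 := mul_pos (h.pos t 3) (h'.pos t' 3)
      positivity
    have hS : ∑ t', (l t 0 * l' t' 0 + l t 1 * l' t' 1 + l t 2 * l' t' 2 + l t 3 * l' t' 3)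
        = l t 0 + l t 1 + l t 2 + l t 3 := by
      simp only [Finset.sum_add_distrib, ← Finset.mul_sum, h'.tot, mul_one]
    have titu : ∀ i : Fin 4, (l t i) ^ 2 / (l t 0 + l t 1 + l t 2 + l t 3)
        ≤ ∑ t', (l t i * l' t' i) ^ 2
          / (l t 0 * l' t' 0 + l t 1 * l' t' 1 + l t 2 * l' t' 2 + l t 3 * l' t' 3) := by
      intro i
      have := Finset.sq_sum_div_le_sum_sq_div (Finset.univ : Finset κ)
        (fun t' => l t i * l' t' i) (g := fun t' =>
          l t 0 * l' t' 0 + l t 1 * l' t' 1 + l t 2 * l' t' 2 + l t 3 * l' t' 3)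
        (fun t' _ => hA t')
      rw [← Finset.mul_sum, h'.tot, mul_one, hS] at this
      exact this
    unfold F4 F4r
    have t0 := titu 0
    have t1 := titu 1
    have t2 := titu 2
    have t3 := titu 3
    have e1 : ∑ t', ((l t 0 * l' t' 0) ^ 2 + (l t 1 * l' t' 1) ^ 2 + (l t 2 * l' t' 2) ^ 2
          + (l t 3 * l' t' 3) ^ 2)
          / (l t 0 * l' t' 0 + l t 1 * l' t' 1 + l t 2 * l' t' 2 + l t 3 * l' t' 3)
        = ∑ t', (l t 0 * l' t' 0) ^ 2
            / (l t 0 * l' t' 0 + l t 1 * l' t' 1 + l t 2 * l' t' 2 + l t 3 * l' t' 3)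
          + ∑ t', (l t 1 * l' t' 1) ^ 2
            / (l t 0 * l' t' 0 + l t 1 * l' t' 1 + l t 2 * l' t' 2 + l t 3 * l' t' 3)
          + ∑ t', (l t 2 * l' t' 2) ^ 2
            / (l t 0 * l' t' 0 + l t 1 * l' t' 1 + l t 2 * l' t' 2 + l t 3 * l' t' 3)
          + ∑ t', (l t 3 * l' t' 3) ^ 2
            / (l t 0 * l' t' 0 + l t 1 * l' t' 1 + l t 2 * l' t' 2 + l t 3 * l' t' 3) := by
      simp only [← Finset.sum_add_distrib, add_div]
    rw [e1, add_div, add_div, add_div]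
    linarith
  have := Finset.sum_le_sum fun t (_ : t ∈ (Finset.univ : Finset ι)) => key t
  linarith

end signals

/-! ### Powers -/

section powers

variable {ι : Type*} [Fintype ι]

/-- The `k`-fold power of a family. -/
def powS (k : ℕ) (l : ι → Fin 4 → ℝ) : (Fin k → ι) → Fin 4 → ℝ := fun τ i => ∏ c, l (τ c) i

theorem powS_isSig {l : ι → Fin 4 → ℝ} (h : IsSig l) (k : ℕ) : IsSig (powS k l) where
  pos := fun τ i => Finset.prod_pos fun c _ => h.pos _ _
  tot := fun i => by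
    unfold powS
    have := Finset.prod_univ_sum (fun _ : Fin k => (Finset.univ : Finset ι)) (fun _ t => l t i)
    rw [Fintype.piFinset_univ] at this
    rw [← this]
    simp [h.tot]
  sym := fun σ => by
    obtain ⟨π, hπ⟩ := h.sym σ
    refine ⟨Equiv.arrowCongr (Equiv.refl _) π, fun τ i => ?_⟩
    unfold powS
    refine Finset.prod_congr rfl fun c _ => ?_
    exact hπ (τ c) i

/-- Decomposition of a sum over a power. -/
theorem sum_powS_succ (G : (Fin 4 → ℝ) → ℝ) (k : ℕ) (l : ι → Fin 4 → ℝ) :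
    ∑ τ, G (powS (k + 1) l τ) = ∑ p, G (prodS l (powS k l) p) := by
  rw [← Equiv.sum_comp (Fin.consEquiv (fun _ : Fin (k + 1) => ι))]
  refine Finset.sum_congr rfl fun p _ => ?_
  congr 1
  funext i
  unfold powS prodS
  rw [Fin.prod_univ_succ]
  rfl

theorem xx_powS_succ (k : ℕ) (l : ι → Fin 4 → ℝ) :
    xx (powS (k + 1) l) = xx (prodS l (powS k l)) := by
  unfold xx
  rw [sum_powS_succ F4]

theorem bj_powS_succ (k : ℕ) (l : ι → Fin 4 → ℝ) :
    bj (powS (k + 1) l) = bj (prodS l (powS k l)) := by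
  unfold bj
  rw [sum_powS_succ Jt]

omit [Fintype ι] in
theorem powS_zero_apply (l : ι → Fin 4 → ℝ) (τ : Fin 0 → ι) (i : Fin 4) : powS 0 l τ i = 1 := by
  simp [powS]

theorem bj_powS_zero (l : ι → Fin 4 → ℝ) : bj (powS 0 l) = 0 := by
  unfold bj Jt
  refine Finset.sum_eq_zero fun τ _ => ?_
  simp [powS_zero_apply]

theorem xx_powS_zero (l : ι → Fin 4 → ℝ) : xx (powS 0 l) = 0 := by
  unfold xx F4 F4r
  simp [powS_zero_apply]
  norm_num

theorem bj_powS {l : ι → Fin 4 → ℝ} (h : IsSig l) (k : ℕ) : bj (powS k l) = k * bj l := by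
  induction k with
  | zero => simp [bj_powS_zero]
  | succ k ih =>
    rw [bj_powS_succ, bj_prodS h (powS_isSig h k), ih]
    push_cast
    ring

theorem sum_powS_one (G : (Fin 4 → ℝ) → ℝ) (l : ι → Fin 4 → ℝ) :
    ∑ τ, G (powS 1 l τ) = ∑ t, G (l t) := by
  have h := Equiv.sum_comp (Equiv.funUnique (Fin 1) ι).symm (fun τ => G (powS 1 l τ))
  rw [← h]
  refine Finset.sum_congr rfl fun t _ => ?_
  congr 1
  funext i
  simp [powS]

theorem xx_powS_one (l : ι → Fin 4 → ℝ) : xx (powS 1 l) = xx l := by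
  unfold xx
  rw [sum_powS_one F4]

/-- The recursion for powers of a flat family. -/
theorem rec_step {W : ι → Fin 4 → ℝ} (hW : IsSig W) (fl : Flat W) (k : ℕ) :
    xx (powS (k + 1) W) ≤ xx (powS k W) + xx W
      + xx W * ((4 / 3) * ((k : ℝ) * bj W - xx (powS k W))) + xx (powS k W) * ee W
      - (1 / 100) * xx (powS k W) * (xx W) ^ 2 := by
  have hk := powS_isSig hW k
  rw [xx_powS_succ, xx_prod_comm]
  have key := xx_prod_le hk hW fl
  have hc := cc_sum_le hk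
  rw [bj_powS hW k] at hc
  have ho := xx_nonneg hW.toW
  have := mul_le_mul_of_nonneg_left hc ho
  linarith

theorem xx_powS_mono {W : ι → Fin 4 → ℝ} (hW : IsSig W) (k : ℕ) :
    xx (powS k W) ≤ xx (powS (k + 1) W) := by
  rw [xx_powS_succ, xx_prod_comm]
  exact xx_le_prod (powS_isSig hW k) hW

end powers

end Vale.Agent.Lib.P154.Q4
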