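import Vale.Agent.Lib.P154.Q4.Sig4

/-!
Logarithmic inequalities for the function `g t = t log (1 + t) - t ^ 2`.
-/

noncomputable section

open Finset

namespace Vale.Agent.Lib.P154.Q4

/-- The basic function of the Jeffreys functional. -/
def gg (t : ℝ) : ℝ := t * Real.log (1 + t) - t ^ 2

/-- A polynomial lower approximation of `log (1 + t)`. -/
def LL (t : ℝ) : ℝ :=
  t - t ^ 2 / 2 + t ^ 3 / 3 - t ^ 4 / 4 + 13 / 81 * t ^ 5 - 11 / 162 * t ^ 6 + 1 / 63 * t ^ 7
    - 1 / 648 * t ^ 8

theorem hasDerivAt_LL (t : ℝ) :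
    HasDerivAt LL (1 - t + t ^ 2 - t ^ 3 + 65 / 81 * t ^ 4 - 11 / 27 * t ^ 5 + 1 / 9 * t ^ 6
      - 1 / 81 * t ^ 7) t := by
  have h := (((((((hasDerivAt_id' t).sub ((hasDerivAt_pow 2 t).div_const 2)).add
    ((hasDerivAt_pow 3 t).div_const 3)).sub ((hasDerivAt_pow 4 t).div_const 4)).add
    ((hasDerivAt_pow 5 t).const_mul (13 / 81 : ℝ))).sub
    ((hasDerivAt_pow 6 t).const_mul (11 / 162 : ℝ))).add
    ((hasDerivAt_pow 7 t).const_mul (1 / 63 : ℝ))).sub
    ((hasDerivAt_pow 8 t).const_mul (1 / 648 : ℝ))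
  refine HasDerivAt.congr_deriv h ?_
  push_cast
  ring

theorem log_sub_LL_mono : MonotoneOn (fun t => Real.log (1 + t) - LL t) (Set.Ioi (-1)) := by
  have hd : ∀ t ∈ Set.Ioi (-1 : ℝ), HasDerivAt (fun t => Real.log (1 + t) - LL t)
      (1 / (1 + t) - (1 - t + t ^ 2 - t ^ 3 + 65 / 81 * t ^ 4 - 11 / 27 * t ^ 5 + 1 / 9 * t ^ 6
      - 1 / 81 * t ^ 7)) t := by
    intro t ht
    have h1 : (0 : ℝ) < 1 + t := by simpa [add_comm] using (neg_lt_iff_pos_add.1 ht)
    have h2 : HasDerivAt (fun t : ℝ => Real.log (1 + t)) (1 / (1 + t)) t := by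
      have := ((hasDerivAt_id' t).const_add (1 : ℝ)).log h1.ne'
      simpa using this
    exact h2.sub (hasDerivAt_LL t)
  apply monotoneOn_of_deriv_nonneg (convex_Ioi (-1))
  · exact fun t ht => (hd t ht).continuousAt.continuousWithinAt
  · intro t ht
    rw [interior_Ioi] at ht
    exact (hd t ht).differentiableAt.differentiableWithinAt
  · intro t ht
    rw [interior_Ioi] at ht
    rw [(hd t ht).deriv]
    have h1 : (0 : ℝ) < 1 + t := by simpa [add_comm] using (neg_lt_iff_pos_add.1 ht)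
    have e : 1 / (1 + t) - (1 - t + t ^ 2 - t ^ 3 + 65 / 81 * t ^ 4 - 11 / 27 * t ^ 5 + 1 / 9 * t ^ 6
        - 1 / 81 * t ^ 7) = t ^ 4 * (2 - t) ^ 4 / (81 * (1 + t)) := by
      field_simp
      ring
    rw [e]
    positivity

/-- The polynomial lower bound for `g`. -/
theorem gtt_le_gg {t : ℝ} (ht : -1 < t) : gttc2 t ≤ gg t := by
  have hm := log_sub_LL_mono
  have h0 : (0 : ℝ) ∈ Set.Ioi (-1 : ℝ) := by simp
  have ht' : t ∈ Set.Ioi (-1 : ℝ) := ht
  have e0 : Real.log (1 + 0) - LL 0 = 0 := by simp [LL]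
  have key : t * LL t ≤ t * Real.log (1 + t) := by
    rcases le_total 0 t with h | h
    · have := hm h0 ht' h
      simp only [e0] at this
      exact mul_le_mul_of_nonneg_left (by linarith) h
    · have := hm ht' h0 h
      simp only [e0] at this
      exact mul_le_mul_of_nonpos_left (by linarith) h
  have e : gttc2 t = t * LL t - t ^ 2 := by
    simp only [gttc2, LL]; ring
  rw [e]
  unfold gg
  linarith

/-- Auxiliary monotone function. -/
theorem aux_m_mono : MonotoneOn (fun v => v / (1 + v) + v - 2 * Real.log (1 + v)) (Set.Ioi (-1)) := by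
  have hd : ∀ t ∈ Set.Ioi (-1 : ℝ), HasDerivAt (fun v => v / (1 + v) + v - 2 * Real.log (1 + v))
      ((1 * (1 + t) - t * 1) / (1 + t) ^ 2 + 1 - 2 * (1 / (1 + t))) t := by
    intro t ht
    have h1 : (0 : ℝ) < 1 + t := by simpa [add_comm] using (neg_lt_iff_pos_add.1 ht)
    have h2 : HasDerivAt (fun t : ℝ => Real.log (1 + t)) (1 / (1 + t)) t := by
      have := ((hasDerivAt_id' t).const_add (1 : ℝ)).log h1.ne'
      simpa using this
    have h3 : HasDerivAt (fun t : ℝ => 1 + t) 1 t := (hasDerivAt_id' t).const_add 1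
    exact (((hasDerivAt_id' t).div h3 h1.ne').add (hasDerivAt_id' t)).sub (h2.const_mul 2)
  apply monotoneOn_of_deriv_nonneg (convex_Ioi (-1))
  · exact fun t ht => (hd t ht).continuousAt.continuousWithinAt
  · intro t ht
    rw [interior_Ioi] at ht
    exact (hd t ht).differentiableAt.differentiableWithinAt
  · intro t ht
    rw [interior_Ioi] at ht
    rw [(hd t ht).deriv]
    have h1 : (0 : ℝ) < 1 + t := by simpa [add_comm] using (neg_lt_iff_pos_add.1 ht)
    have e : (1 * (1 + t) - t * 1) / (1 + t) ^ 2 + 1 - 2 * (1 / (1 + t)) = (t / (1 + t)) ^ 2 := by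
      field_simp
      ring
    rw [e]
    positivity

theorem aux_vm {v : ℝ} (hv : -1 < v) :
    0 ≤ v * (v / (1 + v) + v - 2 * Real.log (1 + v)) := by
  have hm := aux_m_mono
  have h0 : (0 : ℝ) ∈ Set.Ioi (-1 : ℝ) := by simp
  have ht' : v ∈ Set.Ioi (-1 : ℝ) := hv
  have e0 : (0 : ℝ) / (1 + 0) + 0 - 2 * Real.log (1 + 0) = 0 := by simp
  rcases le_total 0 v with h | h
  · have := hm h0 ht' h
    simp only [e0] at this
    exact mul_nonneg h this
  · have := hm ht' h0 h
    simp only [e0] at this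
    exact mul_nonneg_of_nonpos_of_nonpos h this

/-- Scaling inequality for `g`. -/
theorem gg_scale {s t : ℝ} (hs0 : 0 ≤ s) (hs1 : s ≤ 1) (ht : -1 < t) :
    gg (s * t) ≤ s ^ 3 * gg t := by
  rcases hs0.eq_or_lt with rfl | hs
  · simp [gg]
  have hp : ∀ u ∈ Set.Icc s 1, 0 < u ∧ 0 < 1 + u * t := by
    intro u hu
    have hu0 : 0 < u := lt_of_lt_of_le hs hu.1
    refine ⟨hu0, ?_⟩
    have h1 : 0 < u * (1 + t) := mul_pos hu0 (by linarith)
    nlinarith [hu.2]
  have hd : ∀ u ∈ Set.Icc s 1, HasDerivAt (fun u => gg (u * t) / u ^ 3)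
      ((u * t) * ((u * t) / (1 + u * t) + u * t - 2 * Real.log (1 + u * t)) / u ^ 4) u := by
    intro u hu
    obtain ⟨hu0, h1⟩ := hp u hu
    have hv : HasDerivAt (fun u : ℝ => u * t) t u := by
      simpa using (hasDerivAt_id' u).mul_const t
    have hl : HasDerivAt (fun u : ℝ => Real.log (1 + u * t)) (t / (1 + u * t)) u := by
      have := (hv.const_add (1 : ℝ)).log h1.ne'
      simpa using this
    have hg : HasDerivAt (fun u : ℝ => gg (u * t))
        (t * Real.log (1 + u * t) + (u * t) * (t / (1 + u * t)) - 2 * (u * t) * t) u := by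
      have := (hv.mul hl).sub (hv.pow 2)
      refine HasDerivAt.congr_deriv this ?_
      push_cast
      ring
    have h3 := hg.div (hasDerivAt_pow 3 u) (pow_ne_zero 3 hu0.ne')
    refine HasDerivAt.congr_deriv h3 ?_
    unfold gg
    field_simp
    push_cast
    ring
  have hmono : MonotoneOn (fun u => gg (u * t) / u ^ 3) (Set.Icc s 1) := by
    apply monotoneOn_of_deriv_nonneg (convex_Icc s 1)
    · exact fun u hu => (hd u hu).continuousAt.continuousWithinAt
    · intro u hu
      rw [interior_Icc] at hu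
      exact (hd u (Set.Ioo_subset_Icc_self hu)).differentiableAt.differentiableWithinAt
    · intro u hu
      rw [interior_Icc] at hu
      have hu' := Set.Ioo_subset_Icc_self hu
      rw [(hd u hu').deriv]
      obtain ⟨hu0, h1⟩ := hp u hu'
      exact div_nonneg (aux_vm (by linarith)) (by positivity)
  have h := hmono (Set.left_mem_Icc.2 hs1) (Set.right_mem_Icc.2 hs1) hs1
  simp only [one_mul, one_pow, div_one] at h
  rw [div_le_iff₀ (by positivity)] at h
  linarith

/-- The combined bound for the scaled polynomial. -/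
theorem gtt_scale_le {s t : ℝ} (hs0 : 0 ≤ s) (hs1 : s ≤ 1) (ht : -1 < t) :
    gttc2 (s * t) ≤ s ^ 3 * gg t := by
  have h : -1 < s * t := by
    rcases hs0.eq_or_lt with rfl | hs
    · simp
    · nlinarith
  exact (gtt_le_gg h).trans (gg_scale hs0 hs1 ht)

/-- The logarithmic bound for the vertex signal. -/
theorem log_vertex {lam : ℝ} (h0 : 0 ≤ lam) (h1 : lam ≤ 1 / 2) :
    Real.log (1 + 3 * lam) - Real.log (1 - lam) ≤ 4 * lam := by
  have hd : ∀ t ∈ Set.Icc (0 : ℝ) (1 / 2), HasDerivAt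
      (fun t => 4 * t - Real.log (1 + 3 * t) + Real.log (1 - t))
      (4 * 1 - 3 / (1 + 3 * t) + (-1) / (1 - t)) t := by
    intro t ht
    have h1 : (0 : ℝ) < 1 + 3 * t := by linarith [ht.1]
    have h2 : (0 : ℝ) < 1 - t := by linarith [ht.2]
    have h3 : HasDerivAt (fun t : ℝ => Real.log (1 + 3 * t)) (3 / (1 + 3 * t)) t := by
      have := ((((hasDerivAt_id' t).const_mul (3 : ℝ))).const_add (1 : ℝ)).log h1.ne'
      simpa using this
    have h4 : HasDerivAt (fun t : ℝ => Real.log (1 - t)) ((-1) / (1 - t)) t := by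
      have := ((hasDerivAt_id' t).const_sub (1 : ℝ)).log h2.ne'
      simpa using this
    exact (((hasDerivAt_id' t).const_mul (4 : ℝ)).sub h3).add h4
  have hmono : MonotoneOn (fun t => 4 * t - Real.log (1 + 3 * t) + Real.log (1 - t))
      (Set.Icc (0 : ℝ) (1 / 2)) := by
    apply monotoneOn_of_deriv_nonneg (convex_Icc 0 (1 / 2))
    · exact fun u hu => (hd u hu).continuousAt.continuousWithinAt
    · intro u hu
      rw [interior_Icc] at hu
      exact (hd u (Set.Ioo_subset_Icc_self hu)).differentiableAt.differentiableWithinAt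
    · intro t ht
      rw [interior_Icc] at ht
      have ht' := Set.Ioo_subset_Icc_self ht
      rw [(hd t ht').deriv]
      have h1 : (0 : ℝ) < 1 + 3 * t := by linarith [ht.1]
      have h2 : (0 : ℝ) < 1 - t := by linarith [ht.2]
      have e : 4 * 1 - 3 / (1 + 3 * t) + (-1) / (1 - t)
          = 4 * t * (2 - 3 * t) / ((1 + 3 * t) * (1 - t)) := by
        field_simp
        ring
      rw [e]
      have h3 : 0 < t := ht.1
      have h4 : 0 < 2 - 3 * t := by linarith [ht.2]
      positivity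
  have h := hmono (Set.left_mem_Icc.2 (by norm_num)) (Set.mem_Icc.2 ⟨h0, h1⟩) h0
  simp only [mul_zero, add_zero, sub_zero, Real.log_one] at h
  linarith

end Vale.Agent.Lib.P154.Q4
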