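import Vale.Agent.Lib.P154.Q4.Tree4

/-!
Nonreconstruction for the four-state Potts channel.
-/

noncomputable section

open Finset Filter Topology

namespace Vale.Agent.Lib.P154.Q4

variable {d : ℕ} {lam : ℝ}

theorem lam2_le (h0 : 0 ≤ lam) (h1 : lam ≤ 1 / 2) : lam ^ 2 ≤ 1 / 4 := by nlinarith

/-- The first level. -/
theorem level_one (hd : 2 ≤ d) (h0 : 0 ≤ lam) (h1 : lam ≤ 1 / 2) (hKS : (d : ℝ) * lam ^ 2 ≤ 1) :
    IsSig (tlev d lam 1) ∧ xx (tlev d lam 1) ≤ 3 ∧ bj (tlev d lam 1) ≤ 3 := by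
  have hl1 : lam < 1 := by linarith
  have hW := tlev_zero_wsig d lam
  have hS := chan_isSig hW h0 hl1
  have hF := chan_flat hW h0 h1
  have hl2 := lam2_le h0 h1
  have ho : xx (chan lam (tlev d lam 0)) = lam ^ 2 * 3 := by
    rw [xx_chan hW h0 hl1, xx_level_zero]
  have e1 : tlev d lam 1 = powS d (chan lam (tlev d lam 0)) := tlev_succ d lam 0
  rw [e1]
  refine ⟨powS_isSig hS d, ?_, ?_⟩
  · have key := first_level (fun k => xx (powS k (chan lam (tlev d lam 0)))) d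
      (o := xx (chan lam (tlev d lam 0))) (e := ee (chan lam (tlev d lam 0)))
      (b := bj (chan lam (tlev d lam 0)))
      (xx_nonneg hS.toW)
      (by rw [ho]; nlinarith)
      (ee_level_zero d h0 h1)
      (by rw [ho]; linarith [bj_level_zero d h0 h1])
      (fun k => rec_step hS hF k)
      (xx_powS_zero _)
      (fun k => xx_nonneg (powS_isSig hS k).toW)
    refine key.trans ?_
    rw [ho]
    nlinarith
  · refine (le_of_eq (bj_powS hS d)).trans ?_
    have := bj_level_zero d h0 h1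
    have hd0 : (0 : ℝ) ≤ d := Nat.cast_nonneg d
    have := mul_le_mul_of_nonneg_left this hd0
    nlinarith

/-- One step of the recursion on levels. -/
theorem level_step (hd : 2 ≤ d) (h0 : 0 ≤ lam) (h1 : lam ≤ 1 / 2) (hKS : (d : ℝ) * lam ^ 2 ≤ 1)
    (n : ℕ) (hS : IsSig (tlev d lam n)) {y : ℝ} (hX : xx (tlev d lam n) ≤ y)
    (hB : bj (tlev d lam n) ≤ y) (hy : y ≤ 3) :
    IsSig (tlev d lam (n + 1))
      ∧ xx (tlev d lam (n + 1)) ≤ (d : ℝ) * (lam ^ 2 * y) - (1 / 800) * (lam ^ 2 * y) ^ 3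
      ∧ bj (tlev d lam (n + 1))
        ≤ (d : ℝ) * (lam ^ 3 * bj (tlev d lam n) + lam ^ 2 * (1 - lam) * xx (tlev d lam n)) := by
  have hl1 : lam < 1 := by linarith
  have hW := hS.toW
  have hT := chan_isSig hW h0 hl1
  have hF := chan_flat hW h0 h1
  have hl2 := lam2_le h0 h1
  have hX0 := xx_nonneg hW
  have hy0 : 0 ≤ y := hX0.trans hX
  have ho : xx (chan lam (tlev d lam n)) = lam ^ 2 * xx (tlev d lam n) := xx_chan hW h0 hl1
  have hd0 : (0 : ℝ) ≤ d := Nat.cast_nonneg d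
  rw [tlev_succ]
  refine ⟨powS_isSig hT d, ?_, ?_⟩
  · have hsq : 0 ≤ lam ^ 2 := sq_nonneg lam
    refine closure (fun k => xx (powS k (chan lam (tlev d lam n)))) d hd
      (Y := lam ^ 2 * y) (o := xx (chan lam (tlev d lam n))) (e := ee (chan lam (tlev d lam n)))
      (b := bj (chan lam (tlev d lam n))) h0 h1
      (xx_nonneg hT.toW) ?_ ?_ ?_ ?_ ?_
      (fun k => rec_step hT hF k) (xx_powS_one _)
      (fun k => xx_nonneg (powS_isSig hT k).toW) (fun k => xx_powS_mono hT k)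
    · rw [ho]
      exact mul_le_mul_of_nonneg_left hX hsq
    · have : (d : ℝ) * (lam ^ 2 * y) = ((d : ℝ) * lam ^ 2) * y := by ring
      rw [this]
      have := mul_le_mul_of_nonneg_right hKS hy0
      linarith
    · nlinarith
    · rw [ho]
      have key := ee_chan_le hS h0 h1
      have h3 : (4 / 3) * lam ^ 3 * (bj (tlev d lam n) - xx (tlev d lam n))
          ≤ (4 / 3) * lam ^ 3 * (y - xx (tlev d lam n)) :=
        mul_le_mul_of_nonneg_left (by linarith) (by positivity)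
      have e : (4 / 3) * lam * (lam ^ 2 * y - lam ^ 2 * xx (tlev d lam n))
          = (4 / 3) * lam ^ 3 * (y - xx (tlev d lam n)) := by ring
      rw [e]
      linarith
    · rw [ho]
      have key := bj_chan_le hS h0 hl1
      have h3 : lam ^ 3 * bj (tlev d lam n) ≤ lam ^ 3 * y :=
        mul_le_mul_of_nonneg_left hB (by positivity)
      have e : lam ^ 2 * xx (tlev d lam n) + lam * (lam ^ 2 * y - lam ^ 2 * xx (tlev d lam n))
          = lam ^ 3 * y + lam ^ 2 * (1 - lam) * xx (tlev d lam n) := by ring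
      rw [e]
      linarith
  · exact (le_of_eq (bj_powS hT d)).trans (mul_le_mul_of_nonneg_left (bj_chan_le hS h0 hl1) hd0)

/-- The Lyapunov quantity at level `n + 1`. -/
def zz4 (d : ℕ) (lam : ℝ) (n : ℕ) : ℝ := max (xx (tlev d lam (n + 1))) (bj (tlev d lam (n + 1)))

theorem all_levels (hd : 2 ≤ d) (h0 : 0 ≤ lam) (h1 : lam ≤ 1 / 2) (hKS : (d : ℝ) * lam ^ 2 ≤ 1)
    (n : ℕ) : IsSig (tlev d lam (n + 1)) ∧ zz4 d lam n ≤ 3 := by
  induction n with
  | zero =>
    obtain ⟨h, hx, hb⟩ := level_one hd h0 h1 hKS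
    exact ⟨h, max_le hx hb⟩
  | succ n ih =>
    obtain ⟨hS, hz⟩ := ih
    have hX := le_max_left (xx (tlev d lam (n + 1))) (bj (tlev d lam (n + 1)))
    have hB := le_max_right (xx (tlev d lam (n + 1))) (bj (tlev d lam (n + 1)))
    obtain ⟨h2, h3, h4⟩ := level_step hd h0 h1 hKS (n + 1) hS (y := zz4 d lam n) hX hB hz
    refine ⟨h2, ?_⟩
    have hX0 := xx_nonneg hS.toW
    have hz0 : 0 ≤ zz4 d lam n := hX0.trans hX
    have hsq : 0 ≤ lam ^ 2 := sq_nonneg lam
    have t1 : (d : ℝ) * (lam ^ 2 * zz4 d lam n) ≤ zz4 d lam n := by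
      have : (d : ℝ) * (lam ^ 2 * zz4 d lam n) = ((d : ℝ) * lam ^ 2) * zz4 d lam n := by ring
      rw [this]
      have := mul_le_mul_of_nonneg_right hKS hz0
      linarith
    have t0 : 0 ≤ (lam ^ 2 * zz4 d lam n) ^ 3 := by positivity
    refine max_le (by linarith) ?_
    have t2 : lam ^ 3 * bj (tlev d lam (n + 1)) ≤ lam ^ 3 * zz4 d lam n :=
      mul_le_mul_of_nonneg_left hB (by positivity)
    have t3 : lam ^ 2 * (1 - lam) * xx (tlev d lam (n + 1)) ≤ lam ^ 2 * (1 - lam) * zz4 d lam n :=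
      mul_le_mul_of_nonneg_left hX (mul_nonneg hsq (by linarith))
    have t4 : (d : ℝ) * (lam ^ 3 * bj (tlev d lam (n + 1)) + lam ^ 2 * (1 - lam) * xx (tlev d lam (n + 1)))
        ≤ (d : ℝ) * (lam ^ 2 * zz4 d lam n) := by
      apply mul_le_mul_of_nonneg_left _ (Nat.cast_nonneg d)
      nlinarith
    linarith

section limit

variable (hd : 2 ≤ d) (h0 : 0 ≤ lam) (h1 : lam ≤ 1 / 2) (hKS : (d : ℝ) * lam ^ 2 ≤ 1)

include hd h0 h1 hKS

theorem zz4_nonneg (n : ℕ) : 0 ≤ zz4 d lam n :=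
  (xx_nonneg (all_levels hd h0 h1 hKS n).1.toW).trans (le_max_left _ _)

/-- First consequence of the step. -/
theorem step_x (n : ℕ) :
    xx (tlev d lam (n + 2)) ≤ zz4 d lam n - (1 / 800) * lam ^ 6 * (zz4 d lam n) ^ 3 := by
  obtain ⟨hS, hz⟩ := all_levels hd h0 h1 hKS n
  have hX := le_max_left (xx (tlev d lam (n + 1))) (bj (tlev d lam (n + 1)))
  have hB := le_max_right (xx (tlev d lam (n + 1))) (bj (tlev d lam (n + 1)))
  obtain ⟨_, h3, _⟩ := level_step hd h0 h1 hKS (n + 1) hS (y := zz4 d lam n) hX hB hz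
  have hz0 := zz4_nonneg hd h0 h1 hKS n
  have t1 : (d : ℝ) * (lam ^ 2 * zz4 d lam n) ≤ zz4 d lam n := by
    have : (d : ℝ) * (lam ^ 2 * zz4 d lam n) = ((d : ℝ) * lam ^ 2) * zz4 d lam n := by ring
    rw [this]
    have := mul_le_mul_of_nonneg_right hKS hz0
    linarith
  have e : (1 / 800) * (lam ^ 2 * zz4 d lam n) ^ 3 = (1 / 800) * lam ^ 6 * (zz4 d lam n) ^ 3 := by
    ring
  rw [e] at h3
  exact h3.trans (by linarith)

/-- Second consequence of the step. -/
theorem step_b (n : ℕ) :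
    bj (tlev d lam (n + 2)) ≤ lam * zz4 d lam n + (1 - lam) * xx (tlev d lam (n + 1)) := by
  obtain ⟨hS, hz⟩ := all_levels hd h0 h1 hKS n
  have hX := le_max_left (xx (tlev d lam (n + 1))) (bj (tlev d lam (n + 1)))
  have hB := le_max_right (xx (tlev d lam (n + 1))) (bj (tlev d lam (n + 1)))
  obtain ⟨_, _, h4⟩ := level_step hd h0 h1 hKS (n + 1) hS (y := zz4 d lam n) hX hB hz
  have hz0 := zz4_nonneg hd h0 h1 hKS n
  have hX0 := xx_nonneg hS.toW
  have hK : 0 ≤ lam * zz4 d lam n + (1 - lam) * xx (tlev d lam (n + 1)) :=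
    add_nonneg (mul_nonneg h0 hz0) (mul_nonneg (by linarith) hX0)
  have t2 : lam ^ 3 * bj (tlev d lam (n + 1)) ≤ lam ^ 3 * zz4 d lam n :=
    mul_le_mul_of_nonneg_left hB (by positivity)
  have e : (d : ℝ) * (lam ^ 3 * bj (tlev d lam (n + 1)) + lam ^ 2 * (1 - lam) * xx (tlev d lam (n + 1)))
      ≤ ((d : ℝ) * lam ^ 2) * (lam * zz4 d lam n + (1 - lam) * xx (tlev d lam (n + 1))) := by
    have : lam ^ 3 * bj (tlev d lam (n + 1)) + lam ^ 2 * (1 - lam) * xx (tlev d lam (n + 1))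
        ≤ lam ^ 2 * (lam * zz4 d lam n + (1 - lam) * xx (tlev d lam (n + 1))) := by nlinarith
    have := mul_le_mul_of_nonneg_left this (Nat.cast_nonneg d : (0 : ℝ) ≤ d)
    refine this.trans (le_of_eq ?_)
    ring
  have := mul_le_mul_of_nonneg_right hKS hK
  refine h4.trans (e.trans ?_)
  linarith

theorem zz4_succ_le (n : ℕ) : zz4 d lam (n + 1) ≤ zz4 d lam n := by
  have hx := step_x hd h0 h1 hKS n
  have hb := step_b hd h0 h1 hKS n
  have hz0 := zz4_nonneg hd h0 h1 hKS n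
  have hX := le_max_left (xx (tlev d lam (n + 1))) (bj (tlev d lam (n + 1)))
  have t : 0 ≤ (1 / 800) * lam ^ 6 * (zz4 d lam n) ^ 3 := by positivity
  refine max_le (by linarith) (hb.trans ?_)
  have : (1 - lam) * xx (tlev d lam (n + 1)) ≤ (1 - lam) * zz4 d lam n :=
    mul_le_mul_of_nonneg_left hX (by linarith)
  nlinarith

theorem zz4_tendsto : Tendsto (zz4 d lam) atTop (𝓝 0) := by
  have hanti : Antitone (zz4 d lam) := antitone_nat_of_succ_le (zz4_succ_le hd h0 h1 hKS)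
  have hbdd : BddBelow (Set.range (zz4 d lam)) := by
    refine ⟨0, ?_⟩
    rintro _ ⟨n, rfl⟩
    exact zz4_nonneg hd h0 h1 hKS n
  have hlim := tendsto_atTop_ciInf hanti hbdd
  set L := ⨅ i, zz4 d lam i with hL
  have hLle : ∀ n, L ≤ zz4 d lam n := fun n => ciInf_le hbdd n
  have hL0 : 0 ≤ L := le_ciInf (fun n => zz4_nonneg hd h0 h1 hKS n)
  rcases h0.eq_or_lt with rfl | hpos
  · -- the trivial channel
    have hle : ∀ n, zz4 d 0 (n + 1) ≤ 0 := by
      intro n
      obtain ⟨hS, hz⟩ := all_levels hd h0 h1 hKS n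
      have hX := le_max_left (xx (tlev d (0 : ℝ) (n + 1))) (bj (tlev d (0 : ℝ) (n + 1)))
      have hB := le_max_right (xx (tlev d (0 : ℝ) (n + 1))) (bj (tlev d (0 : ℝ) (n + 1)))
      obtain ⟨_, h3, h4⟩ := level_step hd h0 h1 hKS (n + 1) hS (y := zz4 d 0 n) hX hB hz
      refine max_le ?_ ?_
      · have : (d : ℝ) * ((0 : ℝ) ^ 2 * zz4 d 0 n) - (1 / 800) * ((0 : ℝ) ^ 2 * zz4 d 0 n) ^ 3 = 0 := by
          ring
        linarith
      · have : (d : ℝ) * ((0 : ℝ) ^ 3 * bj (tlev d (0 : ℝ) (n + 1))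
            + (0 : ℝ) ^ 2 * (1 - 0) * xx (tlev d (0 : ℝ) (n + 1))) = 0 := by ring
        linarith
    have hL1 : L = 0 := le_antisymm ((hLle 1).trans (hle 0)) hL0
    rw [hL1] at hlim
    exact hlim
  · -- the two-step decay
    have hc : 0 < (1 / 800) * lam ^ 6 := by positivity
    have two : ∀ n, zz4 d lam (n + 2) ≤ zz4 d lam n - (1 - lam) * ((1 / 800) * lam ^ 6 * L ^ 3) := by
      intro n
      have hx1 := step_x hd h0 h1 hKS n
      have hx2 := step_x hd h0 h1 hKS (n + 1)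
      have hb2 := step_b hd h0 h1 hKS (n + 1)
      have hs := zz4_succ_le hd h0 h1 hKS n
      have c1 : (1 / 800) * lam ^ 6 * L ^ 3 ≤ (1 / 800) * lam ^ 6 * (zz4 d lam n) ^ 3 :=
        mul_le_mul_of_nonneg_left (pow_le_pow_left₀ hL0 (hLle n) 3) hc.le
      have c2 : (1 / 800) * lam ^ 6 * L ^ 3 ≤ (1 / 800) * lam ^ 6 * (zz4 d lam (n + 1)) ^ 3 :=
        mul_le_mul_of_nonneg_left (pow_le_pow_left₀ hL0 (hLle (n + 1)) 3) hc.le
      have hK : 0 ≤ (1 / 800) * lam ^ 6 * L ^ 3 := by positivity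
      have hl : 0 ≤ 1 - lam := by linarith
      refine max_le ?_ ?_
      · change xx (tlev d lam (n + 1 + 2)) ≤ _
        have : lam * ((1 / 800) * lam ^ 6 * L ^ 3) ≥ 0 := by positivity
        nlinarith
      · change bj (tlev d lam (n + 1 + 2)) ≤ _
        have t1 : (1 - lam) * xx (tlev d lam (n + 2))
            ≤ (1 - lam) * (zz4 d lam n - (1 / 800) * lam ^ 6 * L ^ 3) :=
          mul_le_mul_of_nonneg_left (by linarith) hl
        have t2 : lam * zz4 d lam (n + 1) ≤ lam * zz4 d lam n :=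
          mul_le_mul_of_nonneg_left hs h0
        have e : zz4 d lam n - (1 - lam) * ((1 / 800) * lam ^ 6 * L ^ 3)
            = lam * zz4 d lam n + (1 - lam) * (zz4 d lam n - (1 / 800) * lam ^ 6 * L ^ 3) := by ring
        rw [e]
        linarith
    have hge : ∀ n, L + (1 - lam) * ((1 / 800) * lam ^ 6 * L ^ 3) ≤ zz4 d lam n := by
      intro n
      have := two n
      have := hLle (n + 2)
      linarith
    have hle := ge_of_tendsto' hlim hge
    have hpos2 : 0 < (1 - lam) * ((1 / 800) * lam ^ 6) := by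
      have : 0 < 1 - lam := by linarith
      positivity
    have hcube : L ^ 3 ≤ 0 := by
      by_contra hneg
      push Not at hneg
      have : 0 < (1 - lam) * ((1 / 800) * lam ^ 6) * L ^ 3 := mul_pos hpos2 hneg
      nlinarith
    have hL1 : L = 0 := by
      rcases hL0.eq_or_lt with h | h
      · exact h.symm
      · have : 0 < L ^ 3 := by positivity
        linarith
    rw [hL1] at hlim
    exact hlim

end limit

/-! ### From the functional to the advantage -/

theorem abs_le_tangent (z δ : ℝ) (hδ : 0 < δ) : |z| ≤ δ / 2 + z ^ 2 / (2 * δ) := by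
  have h : z ^ 2 / (2 * δ) = |z| ^ 2 / (2 * δ) := by rw [sq_abs]
  rw [h, div_add_div _ _ (by norm_num) (by positivity), le_div_iff₀ (by positivity)]
  nlinarith [sq_nonneg (|z| - δ), mul_pos hδ hδ]

theorem point_adv {x : Fin 4 → ℝ} (hT : 0 < tot4 x) (δ : ℝ) (hδ : 0 < δ) :
    nN x * ((1 / 2) * (|x 0 / tot4 x - 1 / 4| + |x 1 / tot4 x - 1 / 4| + |x 2 / tot4 x - 1 / 4|
        + |x 3 / tot4 x - 1 / 4|))
      ≤ nN x * δ + nN x * cI x / (16 * δ) := by
  have hN : 0 < nN x := by unfold nN; positivity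
  have t0 := abs_le_tangent (x 0 / tot4 x - 1 / 4) δ hδ
  have t1 := abs_le_tangent (x 1 / tot4 x - 1 / 4) δ hδ
  have t2 := abs_le_tangent (x 2 / tot4 x - 1 / 4) δ hδ
  have t3 := abs_le_tangent (x 3 / tot4 x - 1 / 4) δ hδ
  have e : (x 0 / tot4 x - 1 / 4) ^ 2 + (x 1 / tot4 x - 1 / 4) ^ 2 + (x 2 / tot4 x - 1 / 4) ^ 2
      + (x 3 / tot4 x - 1 / 4) ^ 2 = cI x / 4 := by
    unfold cI inI fA fB fC
    have e0 : x 3 = tot4 x - x 0 - x 1 - x 2 := by unfold tot4; ring
    rw [e0]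
    field_simp
    ring
  have hsum : (1 / 2) * (|x 0 / tot4 x - 1 / 4| + |x 1 / tot4 x - 1 / 4| + |x 2 / tot4 x - 1 / 4|
        + |x 3 / tot4 x - 1 / 4|) ≤ δ + cI x / (16 * δ) := by
    have e2 : (x 0 / tot4 x - 1 / 4) ^ 2 / (2 * δ) + (x 1 / tot4 x - 1 / 4) ^ 2 / (2 * δ)
        + (x 2 / tot4 x - 1 / 4) ^ 2 / (2 * δ) + (x 3 / tot4 x - 1 / 4) ^ 2 / (2 * δ)
        = 2 * (cI x / (16 * δ)) := by
      rw [← add_div, ← add_div, ← add_div, e]
      field_simp
      ring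
    linarith
  have := mul_le_mul_of_nonneg_left hsum hN.le
  refine this.trans (le_of_eq ?_)
  ring

theorem advantage_le {n : ℕ} (hW : WSig (tlev d lam n)) (δ : ℝ) (hδ : 0 < δ) :
    advantage d 4 lam n ≤ δ + xx (tlev d lam n) / (16 * δ) := by
  have e1 : ∀ τ, leafProb d 4 lam n τ = nN (tlev d lam n τ) := by
    intro τ
    unfold leafProb nN tot4 tlev
    rw [Fin.sum_univ_four]
    push_cast
    ring
  have e2 : ∀ τ (i : Fin 4), rootPost d 4 lam n i τ = tlev d lam n τ i / tot4 (tlev d lam n τ) := by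
    intro τ i
    unfold rootPost
    rw [e1]
    have hN := hW.Npos τ
    have e3 : leafLik d 4 lam n i τ = tlev d lam n τ i := rfl
    rw [e3]
    unfold nN
    push_cast
    field_simp
  have key : advantage d 4 lam n ≤ ∑ τ, (nN (tlev d lam n τ) * δ
      + nN (tlev d lam n τ) * cI (tlev d lam n τ) / (16 * δ)) := by
    unfold advantage
    refine Finset.sum_le_sum fun τ _ => ?_
    have hp := point_adv (hW.Npos τ) δ hδ
    rw [e1, Fin.sum_univ_four]
    simp only [e2]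
    push_cast
    exact hp
  refine key.trans (le_of_eq ?_)
  rw [Finset.sum_add_distrib, ← Finset.sum_mul, ← Finset.sum_div, sum_nN hW.tot, ← xx_eq hW]
  ring

theorem advantage_nonneg {n : ℕ} (hW : WSig (tlev d lam n)) : 0 ≤ advantage d 4 lam n := by
  unfold advantage
  refine Finset.sum_nonneg fun τ _ => mul_nonneg ?_ ?_
  · unfold leafProb
    refine Finset.sum_nonneg fun i _ => mul_nonneg (by positivity) ?_
    exact hW.nonneg τ i
  · exact mul_nonneg (by norm_num) (Finset.sum_nonneg fun i _ => abs_nonneg _)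

/-- Nonreconstruction for the four-state Potts channel with `0 ≤ lam ≤ 1/2`, at and below the
Kesten-Stigum bound. -/
theorem advantage_tendsto (hd : 2 ≤ d) (h0 : 0 ≤ lam) (h1 : lam ≤ 1 / 2)
    (hKS : (d : ℝ) * lam ^ 2 ≤ 1) : Tendsto (advantage d 4 lam) atTop (𝓝 0) := by
  have hz := zz4_tendsto hd h0 h1 hKS
  rw [Metric.tendsto_atTop]
  intro ε hε
  have hev := (tendsto_order.1 hz).2 (ε ^ 2) (by positivity)
  obtain ⟨N, hN⟩ := Filter.eventually_atTop.1 hev
  refine ⟨N + 1, fun n hn => ?_⟩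
  obtain ⟨m, rfl⟩ : ∃ m, n = m + 1 := ⟨n - 1, by omega⟩
  obtain ⟨hS, _⟩ := all_levels hd h0 h1 hKS m
  have h2 := advantage_le hS.toW (ε / 2) (by positivity)
  have h3 := advantage_nonneg hS.toW
  have h4 := hN m (by omega)
  have h5 : xx (tlev d lam (m + 1)) < ε ^ 2 :=
    lt_of_le_of_lt (le_max_left _ _) h4
  have h6 : xx (tlev d lam (m + 1)) / (16 * (ε / 2)) < ε / 8 := by
    rw [div_lt_iff₀ (by positivity)]
    nlinarith
  rw [Real.dist_eq, sub_zero, abs_of_nonneg h3]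
  linarith

end Vale.Agent.Lib.P154.Q4
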