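import Vale.Agent.Lib.P154.Q4.Term

/-!
Arrangements of four numbers: the sum over the 24 arrangements matches the orbit sum of the Fourier
coordinates, and symmetric families of likelihood vectors are invariant under arrangements.
-/

noncomputable section

open Finset

namespace Vale.Agent.Lib.P154.Q4

/-- The sum of a function over the arrangements of four numbers, in the order of the orbit sum. -/
def orbY (G : ℝ → ℝ → ℝ → ℝ → ℝ) (y0 y1 y2 y3 : ℝ) : ℝ :=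
  G y0 y1 y2 y3 +
  G y1 y0 y3 y2 +
  G y2 y3 y0 y1 +
  G y3 y2 y1 y0 +
  G y0 y1 y3 y2 +
  G y1 y0 y2 y3 +
  G y3 y2 y0 y1 +
  G y2 y3 y1 y0 +
  G y0 y2 y1 y3 +
  G y2 y0 y3 y1 +
  G y1 y3 y0 y2 +
  G y3 y1 y2 y0 +
  G y0 y2 y3 y1 +
  G y2 y0 y1 y3 +
  G y3 y1 y0 y2 +
  G y1 y3 y2 y0 +
  G y0 y3 y1 y2 +
  G y3 y0 y2 y1 +
  G y1 y2 y0 y3 +
  G y2 y1 y3 y0 +
  G y0 y3 y2 y1 +
  G y3 y0 y1 y2 +
  G y2 y1 y0 y3 +
  G y1 y2 y3 y0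

theorem orbY_eq (G : ℝ → ℝ → ℝ → ℝ → ℝ) (N a b c : ℝ) :
    orbY G (N * (1 + a + b + c)) (N * (1 + a - b - c)) (N * (1 - a + b - c)) (N * (1 - a - b + c))
      = orb (fun a b c => G (N * (1 + a + b + c)) (N * (1 + a - b - c)) (N * (1 - a + b - c))
          (N * (1 - a - b + c))) a b c := by
  simp only [orbY, orb]
  ring_nf

def pm1 : Equiv.Perm (Fin 4) := ⟨![1,0,3,2], ![1,0,3,2], by decide, by decide⟩
def pm2 : Equiv.Perm (Fin 4) := ⟨![2,3,0,1], ![2,3,0,1], by decide, by decide⟩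
def pm3 : Equiv.Perm (Fin 4) := ⟨![3,2,1,0], ![3,2,1,0], by decide, by decide⟩
def pm4 : Equiv.Perm (Fin 4) := ⟨![0,1,3,2], ![0,1,3,2], by decide, by decide⟩
def pm5 : Equiv.Perm (Fin 4) := ⟨![1,0,2,3], ![1,0,2,3], by decide, by decide⟩
def pm6 : Equiv.Perm (Fin 4) := ⟨![3,2,0,1], ![2,3,1,0], by decide, by decide⟩
def pm7 : Equiv.Perm (Fin 4) := ⟨![2,3,1,0], ![3,2,0,1], by decide, by decide⟩
def pm8 : Equiv.Perm (Fin 4) := ⟨![0,2,1,3], ![0,2,1,3], by decide, by decide⟩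
def pm9 : Equiv.Perm (Fin 4) := ⟨![2,0,3,1], ![1,3,0,2], by decide, by decide⟩
def pm10 : Equiv.Perm (Fin 4) := ⟨![1,3,0,2], ![2,0,3,1], by decide, by decide⟩
def pm11 : Equiv.Perm (Fin 4) := ⟨![3,1,2,0], ![3,1,2,0], by decide, by decide⟩
def pm12 : Equiv.Perm (Fin 4) := ⟨![0,2,3,1], ![0,3,1,2], by decide, by decide⟩
def pm13 : Equiv.Perm (Fin 4) := ⟨![2,0,1,3], ![1,2,0,3], by decide, by decide⟩
def pm14 : Equiv.Perm (Fin 4) := ⟨![3,1,0,2], ![2,1,3,0], by decide, by decide⟩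
def pm15 : Equiv.Perm (Fin 4) := ⟨![1,3,2,0], ![3,0,2,1], by decide, by decide⟩
def pm16 : Equiv.Perm (Fin 4) := ⟨![0,3,1,2], ![0,2,3,1], by decide, by decide⟩
def pm17 : Equiv.Perm (Fin 4) := ⟨![3,0,2,1], ![1,3,2,0], by decide, by decide⟩
def pm18 : Equiv.Perm (Fin 4) := ⟨![1,2,0,3], ![2,0,1,3], by decide, by decide⟩
def pm19 : Equiv.Perm (Fin 4) := ⟨![2,1,3,0], ![3,1,0,2], by decide, by decide⟩
def pm20 : Equiv.Perm (Fin 4) := ⟨![0,3,2,1], ![0,3,2,1], by decide, by decide⟩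
def pm21 : Equiv.Perm (Fin 4) := ⟨![3,0,1,2], ![1,2,3,0], by decide, by decide⟩
def pm22 : Equiv.Perm (Fin 4) := ⟨![2,1,0,3], ![2,1,0,3], by decide, by decide⟩
def pm23 : Equiv.Perm (Fin 4) := ⟨![1,2,3,0], ![3,0,1,2], by decide, by decide⟩

variable {ι : Type*} [Fintype ι]

theorem sum_perm {l : ι → Fin 4 → ℝ} {σ : Equiv.Perm (Fin 4)}
    (h : ∃ π : Equiv.Perm ι, ∀ t i, l (π t) i = l t (σ i)) (G : ℝ → ℝ → ℝ → ℝ → ℝ) :
    ∑ t, G (l t (σ 0)) (l t (σ 1)) (l t (σ 2)) (l t (σ 3)) = ∑ t, G (l t 0) (l t 1) (l t 2) (l t 3) := by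
  obtain ⟨π, hπ⟩ := h
  rw [← Equiv.sum_comp π (fun t => G (l t 0) (l t 1) (l t 2) (l t 3))]
  simp only [hπ]

theorem sum_orbY {l : ι → Fin 4 → ℝ}
    (hs : ∀ σ : Equiv.Perm (Fin 4), ∃ π : Equiv.Perm ι, ∀ t i, l (π t) i = l t (σ i))
    (G : ℝ → ℝ → ℝ → ℝ → ℝ) :
    ∑ t, orbY G (l t 0) (l t 1) (l t 2) (l t 3) = 24 * ∑ t, G (l t 0) (l t 1) (l t 2) (l t 3) := by
  have e1 : ∑ t, G (l t 1) (l t 0) (l t 3) (l t 2) = ∑ t, G (l t 0) (l t 1) (l t 2) (l t 3) := sum_perm (σ := pm1) (hs pm1) G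
  have e2 : ∑ t, G (l t 2) (l t 3) (l t 0) (l t 1) = ∑ t, G (l t 0) (l t 1) (l t 2) (l t 3) := sum_perm (σ := pm2) (hs pm2) G
  have e3 : ∑ t, G (l t 3) (l t 2) (l t 1) (l t 0) = ∑ t, G (l t 0) (l t 1) (l t 2) (l t 3) := sum_perm (σ := pm3) (hs pm3) G
  have e4 : ∑ t, G (l t 0) (l t 1) (l t 3) (l t 2) = ∑ t, G (l t 0) (l t 1) (l t 2) (l t 3) := sum_perm (σ := pm4) (hs pm4) G
  have e5 : ∑ t, G (l t 1) (l t 0) (l t 2) (l t 3) = ∑ t, G (l t 0) (l t 1) (l t 2) (l t 3) := sum_perm (σ := pm5) (hs pm5) G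
  have e6 : ∑ t, G (l t 3) (l t 2) (l t 0) (l t 1) = ∑ t, G (l t 0) (l t 1) (l t 2) (l t 3) := sum_perm (σ := pm6) (hs pm6) G
  have e7 : ∑ t, G (l t 2) (l t 3) (l t 1) (l t 0) = ∑ t, G (l t 0) (l t 1) (l t 2) (l t 3) := sum_perm (σ := pm7) (hs pm7) G
  have e8 : ∑ t, G (l t 0) (l t 2) (l t 1) (l t 3) = ∑ t, G (l t 0) (l t 1) (l t 2) (l t 3) := sum_perm (σ := pm8) (hs pm8) G
  have e9 : ∑ t, G (l t 2) (l t 0) (l t 3) (l t 1) = ∑ t, G (l t 0) (l t 1) (l t 2) (l t 3) := sum_perm (σ := pm9) (hs pm9) G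
  have e10 : ∑ t, G (l t 1) (l t 3) (l t 0) (l t 2) = ∑ t, G (l t 0) (l t 1) (l t 2) (l t 3) := sum_perm (σ := pm10) (hs pm10) G
  have e11 : ∑ t, G (l t 3) (l t 1) (l t 2) (l t 0) = ∑ t, G (l t 0) (l t 1) (l t 2) (l t 3) := sum_perm (σ := pm11) (hs pm11) G
  have e12 : ∑ t, G (l t 0) (l t 2) (l t 3) (l t 1) = ∑ t, G (l t 0) (l t 1) (l t 2) (l t 3) := sum_perm (σ := pm12) (hs pm12) G
  have e13 : ∑ t, G (l t 2) (l t 0) (l t 1) (l t 3) = ∑ t, G (l t 0) (l t 1) (l t 2) (l t 3) := sum_perm (σ := pm13) (hs pm13) G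
  have e14 : ∑ t, G (l t 3) (l t 1) (l t 0) (l t 2) = ∑ t, G (l t 0) (l t 1) (l t 2) (l t 3) := sum_perm (σ := pm14) (hs pm14) G
  have e15 : ∑ t, G (l t 1) (l t 3) (l t 2) (l t 0) = ∑ t, G (l t 0) (l t 1) (l t 2) (l t 3) := sum_perm (σ := pm15) (hs pm15) G
  have e16 : ∑ t, G (l t 0) (l t 3) (l t 1) (l t 2) = ∑ t, G (l t 0) (l t 1) (l t 2) (l t 3) := sum_perm (σ := pm16) (hs pm16) G
  have e17 : ∑ t, G (l t 3) (l t 0) (l t 2) (l t 1) = ∑ t, G (l t 0) (l t 1) (l t 2) (l t 3) := sum_perm (σ := pm17) (hs pm17) G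
  have e18 : ∑ t, G (l t 1) (l t 2) (l t 0) (l t 3) = ∑ t, G (l t 0) (l t 1) (l t 2) (l t 3) := sum_perm (σ := pm18) (hs pm18) G
  have e19 : ∑ t, G (l t 2) (l t 1) (l t 3) (l t 0) = ∑ t, G (l t 0) (l t 1) (l t 2) (l t 3) := sum_perm (σ := pm19) (hs pm19) G
  have e20 : ∑ t, G (l t 0) (l t 3) (l t 2) (l t 1) = ∑ t, G (l t 0) (l t 1) (l t 2) (l t 3) := sum_perm (σ := pm20) (hs pm20) G
  have e21 : ∑ t, G (l t 3) (l t 0) (l t 1) (l t 2) = ∑ t, G (l t 0) (l t 1) (l t 2) (l t 3) := sum_perm (σ := pm21) (hs pm21) G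
  have e22 : ∑ t, G (l t 2) (l t 1) (l t 0) (l t 3) = ∑ t, G (l t 0) (l t 1) (l t 2) (l t 3) := sum_perm (σ := pm22) (hs pm22) G
  have e23 : ∑ t, G (l t 1) (l t 2) (l t 3) (l t 0) = ∑ t, G (l t 0) (l t 1) (l t 2) (l t 3) := sum_perm (σ := pm23) (hs pm23) G
  simp only [orbY, Finset.sum_add_distrib]
  rw [e1, e2, e3, e4, e5, e6, e7, e8, e9, e10, e11, e12, e13, e14, e15, e16, e17, e18, e19, e20, e21, e22, e23]
  ring

end Vale.Agent.Lib.P154.Q4
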