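import Mathlib

/-!
Real-variable analysis of the recursion for the chi-square functional of powers.
-/

namespace Vale.Agent.Lib.P154.Q4

/-- The recursion without margin, with the upper bounds substituted. -/
theorem rec_simple {xk xk1 o e b es bs : ℝ} {k : ℝ} (hk : 0 ≤ k) (ho : 0 ≤ o) (hx : 0 ≤ xk)
    (he : e ≤ es) (hb : b ≤ bs)
    (hr : xk1 ≤ xk + o + o * ((4 / 3) * (k * b - xk)) + xk * e - (1 / 100) * xk * o ^ 2) :
    xk1 ≤ (1 - (4 / 3) * o + es) * xk + o * (1 + (4 / 3) * k * bs) - (1 / 100) * xk * o ^ 2 := by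
  have t1 : xk * e ≤ xk * es := mul_le_mul_of_nonneg_left he hx
  have t2 : o * (k * b) ≤ o * (k * bs) :=
    mul_le_mul_of_nonneg_left (mul_le_mul_of_nonneg_left hb hk) ho
  nlinarith [t1, t2]

/-- Common parameters for the closure. -/
structure Par (d lam Y o : ℝ) : Prop where
  hd : 2 ≤ d
  h0 : 0 ≤ lam
  h1 : lam ≤ 1 / 2
  ho : 0 ≤ o
  hoY : o ≤ Y
  hY3 : d * Y ≤ 3
  hY34 : Y ≤ 3 / 4

/-- Case L: the invariant `x_K ≤ K Y`. -/
theorem case_L_step {Y o lam D es bs K xK xK1 : ℝ} (hD : 0 ≤ D) (hDe : D = 1 - (4 / 3) * o + es)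
    (hes : es = (4 / 3) * lam * (Y - o)) (hbs : bs = o + lam * (Y - o))
    (hK : 0 ≤ K) (hKY : K * Y ≤ 3) (hoY : o ≤ Y)
    (hL : 4 * (lam * (Y + o) - o) ≤ Y) (hx : xK ≤ K * Y)
    (hr : xK1 ≤ D * xK + o * (1 + (4 / 3) * K * bs)) : xK1 ≤ (K + 1) * Y := by
  have h1 : D * xK ≤ D * (K * Y) := mul_le_mul_of_nonneg_left hx hD
  have h2 : D * (K * Y) + o * (1 + (4 / 3) * K * bs)
      = K * Y + o + (4 / 3) * K * (Y - o) * (lam * (Y + o) - o) := by
    rw [hDe, hes, hbs]; ring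
  have h3 : K * (lam * (Y + o) - o) ≤ K * (Y / 4) :=
    mul_le_mul_of_nonneg_left (by linarith) hK
  have h4 : (4 / 3) * K * (lam * (Y + o) - o) ≤ 1 := by nlinarith
  have h5 := mul_le_mul_of_nonneg_left h4 (sub_nonneg.2 hoY)
  nlinarith

/-- Case L: the final step with margin. -/
theorem case_L_final {d Y o lam D es bs xK xK1 : ℝ} (hd : 2 ≤ d) (hD : 0 ≤ D)
    (hDe : D = 1 - (4 / 3) * o + es)
    (hes : es = (4 / 3) * lam * (Y - o)) (hbs : bs = o + lam * (Y - o))
    (hY3 : d * Y ≤ 3) (hY34 : Y ≤ 3 / 4) (hoY : o ≤ Y) (ho : 0 ≤ o)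
    (hL : 4 * (lam * (Y + o) - o) ≤ Y) (hx : xK ≤ (d - 1) * Y) (hxo : o ≤ xK)
    (hr : xK1 ≤ D * xK + o * (1 + (4 / 3) * (d - 1) * bs) - (1 / 100) * xK * o ^ 2) :
    xK1 ≤ d * Y - (1 / 800) * Y ^ 3 := by
  have hY0 : 0 ≤ Y := ho.trans hoY
  have hd0 : 0 < d := by linarith
  have hK : 0 ≤ d - 1 := by linarith
  have h1 : D * xK ≤ D * ((d - 1) * Y) := mul_le_mul_of_nonneg_left hx hD
  have h2 : D * ((d - 1) * Y) + o * (1 + (4 / 3) * (d - 1) * bs)
      = (d - 1) * Y + o + (4 / 3) * (d - 1) * (Y - o) * (lam * (Y + o) - o) := by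
    rw [hDe, hes, hbs]; ring
  have h3 : (d - 1) * (lam * (Y + o) - o) ≤ (d - 1) * (Y / 4) :=
    mul_le_mul_of_nonneg_left (by linarith) hK
  -- the factor is at most `1 - 1/d`
  have h4 : d * ((4 / 3) * (d - 1) * (lam * (Y + o) - o)) ≤ d - 1 := by
    have : (4 / 3) * (d - 1) * (lam * (Y + o) - o) ≤ (d - 1) * (Y / 3) := by nlinarith
    have h5 := mul_le_mul_of_nonneg_left this hd0.le
    have h6 : d * ((d - 1) * (Y / 3)) ≤ d - 1 := by nlinarith
    linarith
  have h7 : (1 / 100) * o * o ^ 2 ≤ (1 / 100) * xK * o ^ 2 := by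
    have : 0 ≤ o ^ 2 := sq_nonneg o
    have h8 : (xK - o) * o ^ 2 ≥ 0 := mul_nonneg (by linarith) this
    nlinarith
  -- multiply everything by `d`
  have hsub : 0 ≤ Y - o := sub_nonneg.2 hoY
  have h9 := mul_le_mul_of_nonneg_left h4 hsub
  have h10 : xK1 ≤ (d - 1) * Y + o + (4 / 3) * (d - 1) * (Y - o) * (lam * (Y + o) - o)
      - (1 / 100) * o * o ^ 2 := by linarith
  have h11 := mul_le_mul_of_nonneg_left h10 hd0.le
  have e1 : d * ((d - 1) * Y + o + (4 / 3) * (d - 1) * (Y - o) * (lam * (Y + o) - o)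
      - (1 / 100) * o * o ^ 2) = d * (d * Y) - (Y - o)
        + ((Y - o) * (d * ((4 / 3) * (d - 1) * (lam * (Y + o) - o))) - (Y - o) * (d - 1))
        - d * ((1 / 100) * o * o ^ 2) := by ring
  rw [e1] at h11
  have main : d * xK1 ≤ d * (d * Y) - (Y - o) - d * ((1 / 100) * o * o ^ 2) := by linarith
  -- case analysis on the size of `o`
  have e2 : d * (d * Y - (1 / 800) * Y ^ 3) = d * (d * Y) - (1 / 800) * (d * Y ^ 3) := by ring
  have goal : d * xK1 ≤ d * (d * Y - (1 / 800) * Y ^ 3) := by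
    rw [e2]
    rcases le_total Y (2 * o) with h | h
    · have hc : Y ^ 3 ≤ (2 * o) ^ 3 := pow_le_pow_left₀ hY0 h 3
      have e3 : (2 * o) ^ 3 = 800 * ((1 / 100) * o * o ^ 2) := by ring
      rw [e3] at hc
      have h14 := mul_le_mul_of_nonneg_left hc hd0.le
      have e4 : d * (800 * ((1 / 100) * o * o ^ 2)) = 800 * (d * ((1 / 100) * o * o ^ 2)) := by ring
      rw [e4] at h14
      linarith
    · have a1 : Y ^ 2 ≤ (3 / 4) * Y := by nlinarith
      have a2 : d * Y ^ 3 ≤ 3 * Y ^ 2 := by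
        have := mul_le_mul_of_nonneg_right hY3 (sq_nonneg Y)
        have e5 : d * Y * Y ^ 2 = d * Y ^ 3 := by ring
        rw [e5] at this
        exact this
      have h12 : 0 ≤ d * ((1 / 100) * o * o ^ 2) := by positivity
      linarith
  exact le_of_mul_le_mul_left goal hd0

/-- Case Q: one step. -/
theorem case_Q_step {Y o lam D es bs K xK xK1 : ℝ} (hD : 0 ≤ D) (hDe : D = 1 - (4 / 3) * o + es)
    (hes : es = (4 / 3) * lam * (Y - o)) (hbs : bs = o + lam * (Y - o))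
    (hK : 1 ≤ K) (ho : 0 ≤ o) (hes0 : 0 ≤ es) (hD1 : D ≤ 1)
    (hx : xK ≤ K * o * (1 + es * (K - 1)))
    (hr : xK1 ≤ D * xK + o * (1 + (4 / 3) * K * bs)) :
    xK1 ≤ (K + 1) * o * (1 + es * K) := by
  have h1 := mul_le_mul_of_nonneg_left hx hD
  have h2 : (K + 1) * o * (1 + es * K) - (D * (K * o * (1 + es * (K - 1))) + o * (1 + (4 / 3) * K * bs))
      = o * K * (K - 1) * es * ((4 / 3) * o - es) := by
    rw [hDe, hbs]
    have e1 : (4 / 3) * lam * (Y - o) = es := hes.symm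
    have e2 : (4 / 3) * K * (o + lam * (Y - o)) = K * ((4 / 3) * o + es) := by rw [← e1]; ring
    rw [show o * (1 + (4 / 3) * K * (o + lam * (Y - o))) = o * (1 + K * ((4 / 3) * o + es)) by rw [e2]]
    ring
  have h3 : 0 ≤ o * K * (K - 1) * es * ((4 / 3) * o - es) := by
    have h5 : 0 ≤ (4 / 3) * o - es := by rw [hDe] at hD1; linarith
    have h6 : 0 ≤ K - 1 := by linarith
    have h7 : 0 ≤ K := by linarith
    positivity
  linarith

/-- Case Q: conclusion. -/
theorem case_Q_final {d Y o lam es xd : ℝ} (hd : 2 ≤ d) (h0 : 0 ≤ lam) (h1 : lam ≤ 1 / 2)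
    (hes : es = (4 / 3) * lam * (Y - o)) (hY3 : d * Y ≤ 3) (hY34 : Y ≤ 3 / 4) (ho : 0 ≤ o)
    (hoY : 2 * o ≤ Y) (hx : xd ≤ d * o * (1 + es * (d - 1))) :
    xd ≤ d * Y - (1 / 800) * Y ^ 3 := by
  have hY0 : 0 ≤ Y := by linarith
  have hsub : 0 ≤ Y - o := by linarith
  have h2 : d * o * ((4 / 3) * lam) ≤ 1 := by
    have h3 : d * o ≤ 3 / 2 := by nlinarith
    have h4 : 0 ≤ d * o := by positivity
    nlinarith
  have h5 : d * o * (1 + es * (d - 1)) = d * o + (d - 1) * (Y - o) * (d * o * ((4 / 3) * lam)) := by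
    rw [hes]; ring
  have h6 : (d - 1) * (Y - o) * (d * o * ((4 / 3) * lam)) ≤ (d - 1) * (Y - o) * 1 :=
    mul_le_mul_of_nonneg_left h2 (mul_nonneg (by linarith) hsub)
  have h7 : Y ^ 3 / 800 ≤ Y / 2 := by
    have hY2 : Y ^ 2 ≤ (3 / 4) ^ 2 := pow_le_pow_left₀ hY0 hY34 2
    nlinarith [mul_nonneg hY0 (sub_nonneg.2 hY2)]
  nlinarith

/-- Case N: one step. -/
theorem case_N_step {Y o lam D es bs K gam Kp dd xK xK1 : ℝ} (hD : 0 ≤ D)
    (hDe : D = 1 - (4 / 3) * o + es)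
    (hes : es = (4 / 3) * lam * (Y - o)) (hbs : bs = o + lam * (Y - o))
    (hK : 1 ≤ K) (hKd : K ≤ dd - 1) (ho : 0 ≤ o) (hD1 : 1 ≤ D)
    (hKp : Kp = 1 - (D - 1) * (dd - 2) / 2) (hKp0 : 0 < Kp) (hgam : gam * Kp = es) (hgam0 : 0 ≤ gam)
    (hx : xK ≤ K * o * (1 + gam * (K - 1)))
    (hr : xK1 ≤ D * xK + o * (1 + (4 / 3) * K * bs)) :
    xK1 ≤ (K + 1) * o * (1 + gam * K) := by
  have h1 := mul_le_mul_of_nonneg_left hx hD
  have h2 : (K + 1) * o * (1 + gam * K) - (D * (K * o * (1 + gam * (K - 1))) + o * (1 + (4 / 3) * K * bs))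
      = o * K * (gam * (2 - (D - 1) * (K - 1)) - 2 * es) := by
    rw [hbs]
    have e1 : (4 / 3) * lam * (Y - o) = es := hes.symm
    have e2 : (4 / 3) * K * (o + lam * (Y - o)) = K * ((4 / 3) * o + es) := by rw [← e1]; ring
    rw [show o * (1 + (4 / 3) * K * (o + lam * (Y - o))) = o * (1 + K * ((4 / 3) * o + es)) by rw [e2]]
    have e3 : (4 / 3) * o = 1 + es - D := by rw [hDe]; ring
    rw [e3]
    ring
  have h3 : 0 ≤ gam * (2 - (D - 1) * (K - 1)) - 2 * es := by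
    have h4 : (D - 1) * (K - 1) ≤ (D - 1) * (dd - 2) :=
      mul_le_mul_of_nonneg_left (by linarith) (by linarith)
    have h5 : 2 * Kp ≤ 2 - (D - 1) * (K - 1) := by rw [hKp]; linarith
    have h6 := mul_le_mul_of_nonneg_left h5 hgam0
    nlinarith
  have h7 : 0 ≤ o * K * (gam * (2 - (D - 1) * (K - 1)) - 2 * es) := by
    have h8 : 0 ≤ K := by linarith
    positivity
  linarith

/-- Case N: bound on the denominator. -/
theorem case_N_Kp {d Y o lam D es Kp : ℝ} (hd : 2 ≤ d) (h0 : 0 ≤ lam) (h1 : lam ≤ 1 / 2)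
    (hDe : D = 1 - (4 / 3) * o + es)
    (hes : es = (4 / 3) * lam * (Y - o)) (hY3 : d * Y ≤ 3) (hY0 : 0 ≤ Y) (ho : 0 ≤ o) (hD1 : 1 ≤ D)
    (hKp : Kp = 1 - (D - 1) * (d - 2) / 2) :
    1 / d + (2 / 3) * (d - 1) * o * (1 + lam) ≤ Kp := by
  have hd0 : 0 < d := by linarith
  have hδ : D - 1 = (4 / 3) * (lam * (Y - o) - o) := by rw [hDe, hes]; ring
  have hδ0 : 0 ≤ lam * (Y - o) - o := by
    have : 0 ≤ D - 1 := by linarith
    rw [hδ] at this
    linarith
  have h2 : (D - 1) * (d - 2) / 2 ≤ (D - 1) * (d - 1) / 2 := by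
    have : (D - 1) * (d - 2) ≤ (D - 1) * (d - 1) :=
      mul_le_mul_of_nonneg_left (by linarith) (by linarith)
    linarith
  have h3 : (2 / 3) * (d - 1) * (lam * Y) ≤ 1 - 1 / d := by
    have h4 : d * Y * lam ≤ 3 * (1 / 2) :=
      calc d * Y * lam ≤ 3 * lam := mul_le_mul_of_nonneg_right hY3 h0
        _ ≤ 3 * (1 / 2) := by linarith
    have e : 1 - 1 / d = (d - 1) / d := by field_simp
    rw [e, le_div_iff₀ hd0]
    have h7 : 0 ≤ d - 1 := by linarith
    have := mul_le_mul_of_nonneg_left h4 h7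
    nlinarith
  rw [hKp]
  have e4 : (D - 1) * (d - 1) / 2 = (2 / 3) * (d - 1) * (lam * Y) - (2 / 3) * (d - 1) * o * (1 + lam) := by
    rw [hδ]; ring
  linarith

/-- Case N: conclusion. -/
theorem case_N_final {d Y o lam es Kp gam xd : ℝ} (hd : 2 ≤ d) (h0 : 0 ≤ lam) (h1 : lam ≤ 1 / 2)
    (hes : es = (4 / 3) * lam * (Y - o)) (hY34 : Y ≤ 3 / 4) (ho : 0 ≤ o)
    (hoY : 2 * o ≤ Y) (hKp0 : 0 < Kp) (hKpb : (2 / 3) * (d - 1) * o * (1 + lam) ≤ Kp)
    (hgam : gam * Kp = es) (hx : xd ≤ d * o * (1 + gam * (d - 1))) :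
    xd ≤ d * Y - (1 / 800) * Y ^ 3 := by
  have hY0 : 0 ≤ Y := by linarith
  have hd0 : 0 < d := by linarith
  have hsub : 0 ≤ Y - o := by linarith
  -- the key inequality
  have h2 : o * gam * (d - 1) * Kp ≤ (2 / 3) * (Y - o) * Kp := by
    have e : o * gam * (d - 1) * Kp = o * (d - 1) * es := by rw [← hgam]; ring
    rw [e, hes]
    have h3 : (4 / 3) * o * (d - 1) * lam ≤ (2 / 3) * Kp := by
      have h4 : 0 ≤ (d - 1) * o := mul_nonneg (by linarith) ho
      nlinarith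
    have := mul_le_mul_of_nonneg_left h3 hsub
    nlinarith
  have h5 : o * gam * (d - 1) ≤ (2 / 3) * (Y - o) := le_of_mul_le_mul_right h2 hKp0
  have h6 : d * o * (1 + gam * (d - 1)) ≤ d * (o + (2 / 3) * (Y - o)) := by
    have := mul_le_mul_of_nonneg_left h5 hd0.le
    nlinarith
  have h7 : Y ^ 3 / 800 ≤ Y / 3 := by
    have hY2 : Y ^ 2 ≤ (3 / 4) ^ 2 := pow_le_pow_left₀ hY0 hY34 2
    nlinarith [mul_nonneg hY0 (sub_nonneg.2 hY2)]
  have h8 : d * (Y - o) / 3 ≥ Y / 3 := by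
    have : d * (Y - o) ≥ 2 * (Y / 2) := by nlinarith
    linarith
  nlinarith

/-- The closure of the recursion. -/
theorem closure (x : ℕ → ℝ) (d : ℕ) (hd : 2 ≤ d) {lam Y o e b : ℝ} (h0 : 0 ≤ lam)
    (h1 : lam ≤ 1 / 2) (ho : 0 ≤ o) (hoY : o ≤ Y) (hY3 : (d : ℝ) * Y ≤ 3) (hY34 : Y ≤ 3 / 4)
    (he : e ≤ (4 / 3) * lam * (Y - o)) (hb : b ≤ o + lam * (Y - o))
    (hr : ∀ k : ℕ, x (k + 1) ≤ x k + o + o * ((4 / 3) * ((k : ℝ) * b - x k)) + x k * e
      - (1 / 100) * x k * o ^ 2)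
    (hx1 : x 1 = o) (hx0 : ∀ k, 0 ≤ x k) (hmono : ∀ k, x k ≤ x (k + 1)) :
    x d ≤ (d : ℝ) * Y - (1 / 800) * Y ^ 3 := by
  have hd' : (2 : ℝ) ≤ d := by exact_mod_cast hd
  set es := (4 / 3) * lam * (Y - o) with hes
  set bs := o + lam * (Y - o) with hbs
  set D := 1 - (4 / 3) * o + es with hDe
  have hsub : 0 ≤ Y - o := sub_nonneg.2 hoY
  have hes0 : 0 ≤ es := by positivity
  have hD0 : 0 ≤ D := by
    have : (4 / 3) * o ≤ 1 := by linarith
    linarith
  have step : ∀ k : ℕ, x (k + 1) ≤ D * x k + o * (1 + (4 / 3) * (k : ℝ) * bs)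
      - (1 / 100) * x k * o ^ 2 := fun k =>
    rec_simple (Nat.cast_nonneg k) ho (hx0 k) he hb (hr k)
  have step' : ∀ k : ℕ, x (k + 1) ≤ D * x k + o * (1 + (4 / 3) * (k : ℝ) * bs) := by
    intro k
    have h2 : 0 ≤ (1 / 100) * x k * o ^ 2 := by
      have := hx0 k
      positivity
    linarith [step k]
  obtain ⟨d', rfl⟩ : ∃ d', d = d' + 1 := ⟨d - 1, by omega⟩
  have hd'0 : 1 ≤ d' := by omega
  by_cases hL : 4 * (lam * (Y + o) - o) ≤ Y
  · -- case L
    have inv : ∀ k : ℕ, k + 1 ≤ d' + 1 → x (k + 1) ≤ ((k : ℝ) + 1) * Y := by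
      intro k
      induction k with
      | zero =>
        intro _
        rw [hx1]
        simpa using hoY
      | succ k ih =>
        intro hk
        have ih' := ih (by omega)
        have := case_L_step (K := (k : ℝ) + 1) hD0 hDe hes hbs (by positivity)
          (by
            have hk' : ((k : ℝ) + 1) ≤ ((d' + 1 : ℕ) : ℝ) := by
              have : k + 1 ≤ d' + 1 := by omega
              exact_mod_cast this
            have hY0 : 0 ≤ Y := ho.trans hoY
            have := mul_le_mul_of_nonneg_right hk' hY0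
            linarith)
          hoY hL ih' (by
            have := step' (k + 1)
            push_cast at this
            exact this)
        push_cast
        exact this
    obtain ⟨d'', rfl⟩ : ∃ d'', d' = d'' + 1 := ⟨d' - 1, by omega⟩
    have h3 := inv d'' (by omega)
    have h4 : o ≤ x (d'' + 1) := by
      have : ∀ k : ℕ, o ≤ x (k + 1) := by
        intro k
        induction k with
        | zero => rw [hx1]
        | succ k ih => exact ih.trans (hmono _)
      exact this d''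
    have h5 := step (d'' + 1)
    push_cast at h5 hd' hY3 ⊢
    refine case_L_final (d := (d'' : ℝ) + 1 + 1) (xK := x (d'' + 1)) hd' hD0 hDe hes hbs hY3 hY34 hoY ho hL
      (by
        have e : ((d'' : ℝ) + 1 + 1 - 1) = (d'' : ℝ) + 1 := by ring
        rw [e]
        exact h3)
      h4 (by
        have e : ((d'' : ℝ) + 1 + 1 - 1) = (d'' : ℝ) + 1 := by ring
        rw [e]
        exact h5)
  · -- not L
    push Not at hL
    have h2o : 2 * o ≤ Y := by
      nlinarith [mul_nonneg (sub_nonneg.2 h1) (by linarith : 0 ≤ Y + o), ho, hoY]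
    by_cases hD1 : D ≤ 1
    · -- case Q
      have inv : ∀ k : ℕ, x (k + 1) ≤ ((k : ℝ) + 1) * o * (1 + es * (((k : ℝ) + 1) - 1)) := by
        intro k
        induction k with
        | zero =>
          rw [hx1]
          simp
        | succ k ih =>
          have := case_Q_step (K := (k : ℝ) + 1) hD0 hDe hes hbs (by linarith [(Nat.cast_nonneg k : (0:ℝ) ≤ k)])
            ho hes0 hD1 ih (by
              have := step' (k + 1)
              push_cast at this
              exact this)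
          push_cast
          have e : (k : ℝ) + 1 + 1 - 1 = (k : ℝ) + 1 := by ring
          rw [e]
          exact this
      have := inv d'
      push_cast at hd' hY3 ⊢
      refine case_Q_final hd' h0 h1 hes hY3 hY34 ho h2o ?_
      exact this
    · -- case N
      push Not at hD1
      set Kp := 1 - (D - 1) * ((d' + 1 : ℕ) - 2) / 2 with hKp
      have hb1 := case_N_Kp (d := ((d' + 1 : ℕ) : ℝ)) hd' h0 h1 hDe hes hY3 (ho.trans hoY) ho hD1.le hKp
      have hd0 : (0 : ℝ) < ((d' + 1 : ℕ) : ℝ) := by linarith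
      have hKp0 : 0 < Kp := by
        have h5 : 0 < 1 / ((d' + 1 : ℕ) : ℝ) := by positivity
        have h6 : 0 ≤ (2 / 3) * (((d' + 1 : ℕ) : ℝ) - 1) * o * (1 + lam) := by
          have : 0 ≤ ((d' + 1 : ℕ) : ℝ) - 1 := by linarith
          positivity
        linarith
      set gam := es / Kp with hgamd
      have hgam : gam * Kp = es := by rw [hgamd]; field_simp
      have hgam0 : 0 ≤ gam := by positivity
      have inv : ∀ k : ℕ, k + 1 ≤ d' + 1 → x (k + 1) ≤ ((k : ℝ) + 1) * o * (1 + gam * (((k : ℝ) + 1) - 1)) := by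
        intro k
        induction k with
        | zero =>
          intro _
          rw [hx1]
          simp
        | succ k ih =>
          intro hk
          have hk' : ((k : ℝ) + 1) ≤ ((d' + 1 : ℕ) : ℝ) - 1 := by
            have : k + 1 + 1 ≤ d' + 1 := by omega
            have h7 : ((k + 1 + 1 : ℕ) : ℝ) ≤ ((d' + 1 : ℕ) : ℝ) := by exact_mod_cast this
            push_cast at h7 ⊢
            linarith
          have := case_N_step (K := (k : ℝ) + 1) (dd := ((d' + 1 : ℕ) : ℝ)) hD0 hDe hes hbs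
            (by linarith [(Nat.cast_nonneg k : (0:ℝ) ≤ k)]) hk' ho hD1.le hKp hKp0 hgam hgam0 (ih (by omega))
            (by
              have := step' (k + 1)
              push_cast at this
              exact this)
          push_cast
          have e : (k : ℝ) + 1 + 1 - 1 = (k : ℝ) + 1 := by ring
          rw [e]
          exact this
      have h8 := inv d' (le_refl _)
      refine case_N_final hd' h0 h1 hes hY34 ho h2o hKp0 (by
        have h5 : 0 < 1 / ((d' + 1 : ℕ) : ℝ) := by positivity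
        linarith) hgam ?_
      have e : ((d' + 1 : ℕ) : ℝ) = (d' : ℝ) + 1 := by push_cast; ring
      rw [e]
      exact h8

/-- The recursion at the first level. -/
theorem first_level (x : ℕ → ℝ) (d : ℕ) {o e b : ℝ} (ho : 0 ≤ o) (ho1 : (4 / 3) * o ≤ 1)
    (he : e ≤ 0) (hb : b ≤ o)
    (hr : ∀ k : ℕ, x (k + 1) ≤ x k + o + o * ((4 / 3) * ((k : ℝ) * b - x k)) + x k * e
      - (1 / 100) * x k * o ^ 2)
    (hx0' : x 0 = 0) (hx0 : ∀ k, 0 ≤ x k) :
    x d ≤ (d : ℝ) * o := by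
  induction d with
  | zero => simp [hx0']
  | succ k ih =>
    have h1 := hr k
    have h2 : x k * e ≤ 0 := mul_nonpos_of_nonneg_of_nonpos (hx0 k) he
    have h3 : 0 ≤ (1 / 100) * x k * o ^ 2 := by
      have := hx0 k
      positivity
    have h4 : o * ((k : ℝ) * b) ≤ o * ((k : ℝ) * o) :=
      mul_le_mul_of_nonneg_left (mul_le_mul_of_nonneg_left hb (Nat.cast_nonneg k)) ho
    have h5 : (1 - (4 / 3) * o) * x k ≤ (1 - (4 / 3) * o) * ((k : ℝ) * o) :=
      mul_le_mul_of_nonneg_left ih (by linarith)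
    push_cast
    nlinarith

end Vale.Agent.Lib.P154.Q4
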