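import Vale.Agent.Lib.P154.Q4.Orb4

/-!
Functionals of likelihood vectors on four letters and the product inequality.
-/

noncomputable section

open Finset

namespace Vale.Agent.Lib.P154.Q4

/-- The total of a likelihood vector. -/
def tot4 (x : Fin 4 → ℝ) : ℝ := x 0 + x 1 + x 2 + x 3

/-- The mean of a likelihood vector. -/
def nN (x : Fin 4 → ℝ) : ℝ := tot4 x / 4

/-- The normalised Fourier coordinates. -/
def fA (x : Fin 4 → ℝ) : ℝ := (x 0 + x 1 - x 2 - x 3) / tot4 x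
def fB (x : Fin 4 → ℝ) : ℝ := (x 0 - x 1 + x 2 - x 3) / tot4 x
def fC (x : Fin 4 → ℝ) : ℝ := (x 0 - x 1 - x 2 + x 3) / tot4 x

/-- The chi-square functional of four numbers. -/
def F4r (a b c d : ℝ) : ℝ := (a ^ 2 + b ^ 2 + c ^ 2 + d ^ 2) / (a + b + c + d)

def F4 (x : Fin 4 → ℝ) : ℝ := F4r (x 0) (x 1) (x 2) (x 3)

def cI (x : Fin 4 → ℝ) : ℝ := inI (fA x) (fB x) (fC x)
def cY (x : Fin 4 → ℝ) : ℝ := inY (fA x) (fB x) (fC x)
def cE (x : Fin 4 → ℝ) : ℝ := inE (fA x) (fB x) (fC x)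

/-- The correction term of a vector. -/
def cc (x : Fin 4 → ℝ) : ℝ := cInvc2 (cI x) (cY x) (cE x)

/-- The correction term of a flat vector. -/
def ce (x : Fin 4 → ℝ) : ℝ := (1 / 8) * cInvc2 (4 * cI x) (8 * cY x) (16 * cE x)

theorem repr0 {x : Fin 4 → ℝ} (hx : tot4 x ≠ 0) : nN x * (1 + fA x + fB x + fC x) = x 0 := by
  unfold nN fA fB fC; field_simp; unfold tot4; ring

theorem repr1 {x : Fin 4 → ℝ} (hx : tot4 x ≠ 0) : nN x * (1 + fA x - fB x - fC x) = x 1 := by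
  unfold nN fA fB fC; field_simp; unfold tot4; ring

theorem repr2 {x : Fin 4 → ℝ} (hx : tot4 x ≠ 0) : nN x * (1 - fA x + fB x - fC x) = x 2 := by
  unfold nN fA fB fC; field_simp; unfold tot4; ring

theorem repr3 {x : Fin 4 → ℝ} (hx : tot4 x ≠ 0) : nN x * (1 - fA x - fB x + fC x) = x 3 := by
  unfold nN fA fB fC; field_simp; unfold tot4; ring

/-- The chi-square functional of a product in Fourier coordinates. -/
theorem F4r_mul (Nx Ny P1 P2 P3 a b c : ℝ) (hx : Nx ≠ 0) (hy : Ny ≠ 0) :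
    F4r (Nx * (1 + P1 + P2 + P3) * (Ny * (1 + a + b + c)))
      (Nx * (1 + P1 - P2 - P3) * (Ny * (1 + a - b - c)))
      (Nx * (1 - P1 + P2 - P3) * (Ny * (1 - a + b - c)))
      (Nx * (1 - P1 - P2 + P3) * (Ny * (1 - a - b + c)))
      = Nx * Ny * (nn P1 P2 P3 a b c / ww P1 P2 P3 a b c) := by
  unfold F4r
  have hc : (4 * Nx * Ny) ≠ 0 := by positivity
  have e1 : (Nx * (1 + P1 + P2 + P3) * (Ny * (1 + a + b + c))) ^ 2
      + (Nx * (1 + P1 - P2 - P3) * (Ny * (1 + a - b - c))) ^ 2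
      + (Nx * (1 - P1 + P2 - P3) * (Ny * (1 - a + b - c))) ^ 2
      + (Nx * (1 - P1 - P2 + P3) * (Ny * (1 - a - b + c))) ^ 2
      = (4 * Nx * Ny) * (Nx * Ny * nn P1 P2 P3 a b c) := by
    simp only [nn]; ring
  have e2 : Nx * (1 + P1 + P2 + P3) * (Ny * (1 + a + b + c))
      + Nx * (1 + P1 - P2 - P3) * (Ny * (1 + a - b - c))
      + Nx * (1 - P1 + P2 - P3) * (Ny * (1 - a + b - c))
      + Nx * (1 - P1 - P2 + P3) * (Ny * (1 - a - b + c))
      = (4 * Nx * Ny) * ww P1 P2 P3 a b c := by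
    simp only [ww, zz]; ring
  rw [e1, e2, mul_div_mul_left _ _ hc, mul_div_assoc]

theorem orb_smul (k : ℝ) (f : ℝ → ℝ → ℝ → ℝ) (a b c : ℝ) :
    orb (fun a b c => k * f a b c) a b c = k * orb f a b c := by
  simp only [orb]; ring

/-- The bound for one pair of vectors, after summing over arrangements of the second. -/
theorem point_bound {x y : Fin 4 → ℝ} (hx : ∀ i, 0 ≤ x i) (hxt : 0 < tot4 x) (hyt : 0 < tot4 y)
    (hfl : ∀ i, (1 / 8) * tot4 y ≤ y i) :
    orbY (fun y0 y1 y2 y3 => F4r (x 0 * y0) (x 1 * y1) (x 2 * y2) (x 3 * y3))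
        (y 0) (y 1) (y 2) (y 3)
      ≤ nN x * nN y * (24 * (1 + cI x + cI y + cI y * cc x + cI x * ce y
          - (1 / 100) * cI x * (cI y) ^ 2)) := by
  have hNx : 0 < nN x := by unfold nN; positivity
  have hNy : 0 < nN y := by unfold nN; positivity
  have rx0 := repr0 hxt.ne'
  have rx1 := repr1 hxt.ne'
  have rx2 := repr2 hxt.ne'
  have rx3 := repr3 hxt.ne'
  have ry0 := repr0 hyt.ne'
  have ry1 := repr1 hyt.ne'
  have ry2 := repr2 hyt.ne'
  have ry3 := repr3 hyt.ne'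
  have hP : Apos (fA x) (fB x) (fC x) := by
    have h0 := hx 0
    have h1 := hx 1
    have h2 := hx 2
    have h3 := hx 3
    rw [← rx0] at h0
    rw [← rx1] at h1
    rw [← rx2] at h2
    rw [← rx3] at h3
    exact ⟨nonneg_of_mul_nonneg_right h0 hNx, nonneg_of_mul_nonneg_right h1 hNx,
      nonneg_of_mul_nonneg_right h2 hNx, nonneg_of_mul_nonneg_right h3 hNx⟩
  have hT : (1 / 8) * tot4 y = nN y * (1 / 2) := by unfold nN; ring
  have hG : Good (fA y) (fB y) (fC y) := by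
    have h0 := hfl 0
    have h1 := hfl 1
    have h2 := hfl 2
    have h3 := hfl 3
    rw [hT, ← ry0] at h0
    rw [hT, ← ry1] at h1
    rw [hT, ← ry2] at h2
    rw [hT, ← ry3] at h3
    exact ⟨le_of_mul_le_mul_left h0 hNy, le_of_mul_le_mul_left h1 hNy,
      le_of_mul_le_mul_left h2 hNy, le_of_mul_le_mul_left h3 hNy⟩
  have key := pair_orb hP hG
  rw [← ry0, ← ry1, ← ry2, ← ry3, orbY_eq]
  have e : (fun a b c => F4r (x 0 * (nN y * (1 + a + b + c))) (x 1 * (nN y * (1 + a - b - c)))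
      (x 2 * (nN y * (1 - a + b - c))) (x 3 * (nN y * (1 - a - b + c))))
      = (fun a b c => (nN x * nN y) * (nn (fA x) (fB x) (fC x) a b c / ww (fA x) (fB x) (fC x) a b c)) := by
    funext a b c
    rw [← rx0, ← rx1, ← rx2, ← rx3]
    exact F4r_mul _ _ _ _ _ _ _ _ hNx.ne' hNy.ne'
  rw [e, orb_smul]
  exact mul_le_mul_of_nonneg_left key (by positivity)

/-- The functional `F` in Fourier coordinates. -/
theorem F4_eq {x : Fin 4 → ℝ} (hx : 0 < tot4 x) : F4 x = nN x * (1 + cI x) := by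
  have h : tot4 x ≠ 0 := hx.ne'
  unfold F4 F4r cI inI fA fB fC nN
  have e : x 0 + x 1 + x 2 + x 3 = tot4 x := rfl
  rw [e]
  field_simp
  unfold tot4
  ring

theorem cI_nonneg (x : Fin 4 → ℝ) : 0 ≤ cI x := by
  unfold cI inI; positivity

section signals

variable {ι κ : Type*} [Fintype ι] [Fintype κ]

/-- A likelihood family on four letters with relabelling symmetry. -/
structure WSig (l : ι → Fin 4 → ℝ) : Prop where
  nonneg : ∀ t i, 0 ≤ l t i
  Npos : ∀ t, 0 < tot4 (l t)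
  tot : ∀ i, ∑ t, l t i = 1
  sym : ∀ σ : Equiv.Perm (Fin 4), ∃ π : Equiv.Perm ι, ∀ t i, l (π t) i = l t (σ i)

/-- Same, with positive entries. -/
structure IsSig (l : ι → Fin 4 → ℝ) : Prop where
  pos : ∀ t i, 0 < l t i
  tot : ∀ i, ∑ t, l t i = 1
  sym : ∀ σ : Equiv.Perm (Fin 4), ∃ π : Equiv.Perm ι, ∀ t i, l (π t) i = l t (σ i)

omit [Fintype ι] in
theorem tot4_pos_of_pos {x : Fin 4 → ℝ} (h : ∀ i, 0 < x i) : 0 < tot4 x := by
  have h0 := h 0
  have h1 := h 1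
  have h2 := h 2
  have h3 := h 3
  unfold tot4; positivity

theorem IsSig.toW {l : ι → Fin 4 → ℝ} (h : IsSig l) : WSig l where
  nonneg := fun t i => (h.pos t i).le
  Npos := fun t => tot4_pos_of_pos (h.pos t)
  tot := h.tot
  sym := h.sym

/-- Every entry is at least an eighth of the total. -/
def Flat (l : ι → Fin 4 → ℝ) : Prop := ∀ t i, (1 / 8) * tot4 (l t) ≤ l t i

/-- Chi-square functional of a family. -/
def xx (l : ι → Fin 4 → ℝ) : ℝ := ∑ t, F4 (l t) - 1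

/-- Correction functional of a family. -/
def ee (l : ι → Fin 4 → ℝ) : ℝ := ∑ t, nN (l t) * ce (l t)

/-- Product of two families. -/
def prodS (l : ι → Fin 4 → ℝ) (l' : κ → Fin 4 → ℝ) : ι × κ → Fin 4 → ℝ :=
  fun p i => l p.1 i * l' p.2 i

theorem sum_nN {l : ι → Fin 4 → ℝ} (tot : ∀ i, ∑ t, l t i = 1) : ∑ t, nN (l t) = 1 := by
  unfold nN tot4
  rw [← Finset.sum_div]
  simp only [Finset.sum_add_distrib, tot]
  norm_num

theorem xx_eq {l : ι → Fin 4 → ℝ} (h : WSig l) : xx l = ∑ t, nN (l t) * cI (l t) := by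
  unfold xx
  have e : ∀ t, F4 (l t) = nN (l t) + nN (l t) * cI (l t) := by
    intro t
    rw [F4_eq (h.Npos t)]; ring
  simp only [e]
  rw [Finset.sum_add_distrib, sum_nN h.tot]
  ring

theorem nN_nonneg {l : ι → Fin 4 → ℝ} (h : WSig l) (t : ι) : 0 ≤ nN (l t) := by
  have := h.Npos t
  unfold nN; positivity

theorem xx_nonneg {l : ι → Fin 4 → ℝ} (h : WSig l) : 0 ≤ xx l := by
  rw [xx_eq h]
  exact Finset.sum_nonneg fun t _ => mul_nonneg (nN_nonneg h t) (cI_nonneg _)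

/-- Jensen for the mean of `cI`. -/
theorem sq_le_mean {l : ι → Fin 4 → ℝ} (h : WSig l) :
    (xx l) ^ 2 ≤ ∑ t, nN (l t) * (cI (l t)) ^ 2 := by
  have key : 0 ≤ ∑ t, nN (l t) * (cI (l t) - xx l) ^ 2 :=
    Finset.sum_nonneg fun t _ => mul_nonneg (nN_nonneg h t) (sq_nonneg _)
  have e : ∑ t, nN (l t) * (cI (l t) - xx l) ^ 2
      = ∑ t, nN (l t) * (cI (l t)) ^ 2 - 2 * xx l * ∑ t, nN (l t) * cI (l t)
        + (xx l) ^ 2 * ∑ t, nN (l t) := by
    rw [Finset.mul_sum, Finset.mul_sum, ← Finset.sum_sub_distrib, ← Finset.sum_add_distrib]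
    refine Finset.sum_congr rfl fun t _ => ?_
    ring
  rw [e, sum_nN h.tot, ← xx_eq h] at key
  nlinarith [key]

/-- Separation of a double sum. -/
theorem sum_bilin4 (n f h : ι → ℝ) (m g k q : κ → ℝ) :
    ∑ t, ∑ t', (n t * m t' + f t * m t' + n t * g t' + h t * g t' + f t * k t'
        - (1 / 100) * (f t * q t'))
      = (∑ t, n t) * (∑ t', m t') + (∑ t, f t) * (∑ t', m t') + (∑ t, n t) * (∑ t', g t')
        + (∑ t, h t) * (∑ t', g t') + (∑ t, f t) * (∑ t', k t')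
        - (1 / 100) * ((∑ t, f t) * (∑ t', q t')) := by
  simp only [Finset.sum_sub_distrib, Finset.sum_add_distrib, ← Finset.mul_sum, ← Finset.sum_mul]

theorem xx_prodS_eq (l : ι → Fin 4 → ℝ) (l' : κ → Fin 4 → ℝ) :
    xx (prodS l l') = ∑ t, ∑ t', F4r (l t 0 * l' t' 0) (l t 1 * l' t' 1) (l t 2 * l' t' 2)
        (l t 3 * l' t' 3) - 1 := by
  unfold xx prodS F4
  rw [Fintype.sum_prod_type]

/-- The product inequality for families. -/
theorem xx_prod_le {l : ι → Fin 4 → ℝ} {l' : κ → Fin 4 → ℝ} (h : IsSig l) (h' : IsSig l')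
    (fl : Flat l') :
    xx (prodS l l') ≤ xx l + xx l' + xx l' * (∑ t, nN (l t) * cc (l t)) + xx l * ee l'
      - (1 / 100) * xx l * (xx l') ^ 2 := by
  have hW := h.toW
  have hW' := h'.toW
  have step : ∀ t, ∑ t', F4r (l t 0 * l' t' 0) (l t 1 * l' t' 1) (l t 2 * l' t' 2) (l t 3 * l' t' 3)
      ≤ ∑ t', (nN (l t) * nN (l' t') + (nN (l t) * cI (l t)) * nN (l' t')
        + nN (l t) * (nN (l' t') * cI (l' t')) + (nN (l t) * cc (l t)) * (nN (l' t') * cI (l' t'))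
        + (nN (l t) * cI (l t)) * (nN (l' t') * ce (l' t'))
        - (1 / 100) * ((nN (l t) * cI (l t)) * (nN (l' t') * (cI (l' t')) ^ 2))) := by
    intro t
    have e := sum_orbY h'.sym (fun y0 y1 y2 y3 => F4r (l t 0 * y0) (l t 1 * y1) (l t 2 * y2) (l t 3 * y3))
    have b : ∑ t', orbY (fun y0 y1 y2 y3 => F4r (l t 0 * y0) (l t 1 * y1) (l t 2 * y2) (l t 3 * y3))
          (l' t' 0) (l' t' 1) (l' t' 2) (l' t' 3)
        ≤ ∑ t', 24 * (nN (l t) * nN (l' t') + (nN (l t) * cI (l t)) * nN (l' t')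
        + nN (l t) * (nN (l' t') * cI (l' t')) + (nN (l t) * cc (l t)) * (nN (l' t') * cI (l' t'))
        + (nN (l t) * cI (l t)) * (nN (l' t') * ce (l' t'))
        - (1 / 100) * ((nN (l t) * cI (l t)) * (nN (l' t') * (cI (l' t')) ^ 2))) := by
      refine Finset.sum_le_sum fun t' _ => ?_
      have := point_bound (x := l t) (y := l' t') (hW.nonneg t) (hW.Npos t) (hW'.Npos t') (fl t')
      refine this.trans (le_of_eq ?_)
      ring
    rw [e, ← Finset.mul_sum] at b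
    linarith
  rw [xx_prodS_eq]
  have s := Finset.sum_le_sum fun t (_ : t ∈ (Finset.univ : Finset ι)) => step t
  rw [sum_bilin4 (fun t => nN (l t)) (fun t => nN (l t) * cI (l t)) (fun t => nN (l t) * cc (l t))
    (fun t' => nN (l' t')) (fun t' => nN (l' t') * cI (l' t')) (fun t' => nN (l' t') * ce (l' t'))
    (fun t' => nN (l' t') * (cI (l' t')) ^ 2), sum_nN hW.tot, sum_nN hW'.tot, ← xx_eq hW, ← xx_eq hW'] at s
  have hJ := sq_le_mean hW'
  have hx := xx_nonneg hW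
  have hm := mul_le_mul_of_nonneg_left hJ hx
  change _ ≤ 1 * 1 + xx l * 1 + 1 * xx l' + (∑ t, nN (l t) * cc (l t)) * xx l' + xx l * ee l'
    - 1 / 100 * (xx l * ∑ t', nN (l' t') * cI (l' t') ^ 2) at s
  nlinarith [s, hm]

end signals

end Vale.Agent.Lib.P154.Q4
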