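import Vale.Agent.Lib.P154.Q4.CertAll

/-!
The bound on the orbit sum of one pair of likelihood vectors.
-/

noncomputable section

namespace Vale.Agent.Lib.P154.Q4

/-- The normalised inner product of the two likelihood vectors. -/
def ww (P1 P2 P3 a b c : ℝ) : ℝ := 1 + zz P1 P2 P3 a b c

/-- The normalised squared norm of the product vector. -/
def nn (P1 P2 P3 a b c : ℝ) : ℝ :=
  (1 / 4) * ((1 + P1 + P2 + P3) ^ 2 * (1 + a + b + c) ^ 2
    + (1 + P1 - P2 - P3) ^ 2 * (1 + a - b - c) ^ 2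
    + (1 - P1 + P2 - P3) ^ 2 * (1 - a + b - c) ^ 2
    + (1 - P1 - P2 + P3) ^ 2 * (1 - a - b + c) ^ 2)

/-- The inner product of `P` and `Δ`. -/
def pd (P1 P2 P3 a b c : ℝ) : ℝ :=
  P1 * del1 P1 P2 P3 a b c + P2 * del2 P1 P2 P3 a b c + P3 * del3 P1 P2 P3 a b c

theorem nn_eq (P1 P2 P3 a b c : ℝ) :
    nn P1 P2 P3 a b c = ww P1 P2 P3 a b c ^ 2 * (1 + inI P1 P2 P3)
      + 2 * ww P1 P2 P3 a b c * pd P1 P2 P3 a b c + dd P1 P2 P3 a b c := by
  simp only [nn, ww, pd, dd, del1, del2, del3, zz, inI]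
  ring

/-- Lower bound on the entries of the flat vector. -/
def Good (a b c : ℝ) : Prop :=
  1 / 2 ≤ 1 + a + b + c ∧ 1 / 2 ≤ 1 + a - b - c ∧ 1 / 2 ≤ 1 - a + b - c ∧ 1 / 2 ≤ 1 - a - b + c

/-- Nonnegativity of the entries of the first vector. -/
def Apos (P1 P2 P3 : ℝ) : Prop :=
  0 ≤ 1 + P1 + P2 + P3 ∧ 0 ≤ 1 + P1 - P2 - P3 ∧ 0 ≤ 1 - P1 + P2 - P3 ∧ 0 ≤ 1 - P1 - P2 + P3

theorem ww_bounds {P1 P2 P3 a b c : ℝ} (hP : Apos P1 P2 P3) (hG : Good a b c) :
    1 / 2 ≤ ww P1 P2 P3 a b c ∧ ww P1 P2 P3 a b c ≤ 5 / 2 := by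
  obtain ⟨a0, a1, a2, a3⟩ := hP
  obtain ⟨b0, b1, b2, b3⟩ := hG
  have h : ww P1 P2 P3 a b c = (1 / 4) * ((1 + P1 + P2 + P3) * (1 + a + b + c)
      + (1 + P1 - P2 - P3) * (1 + a - b - c) + (1 - P1 + P2 - P3) * (1 - a + b - c)
      + (1 - P1 - P2 + P3) * (1 - a - b + c)) := by
    simp only [ww, zz]; ring
  rw [h]
  have l0 := mul_nonneg a0 (sub_nonneg.2 b0)
  have l1 := mul_nonneg a1 (sub_nonneg.2 b1)
  have l2 := mul_nonneg a2 (sub_nonneg.2 b2)
  have l3 := mul_nonneg a3 (sub_nonneg.2 b3)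
  have u0 : 0 ≤ (1 + P1 + P2 + P3) * (5 / 2 - (1 + a + b + c)) := mul_nonneg a0 (by linarith)
  have u1 : 0 ≤ (1 + P1 - P2 - P3) * (5 / 2 - (1 + a - b - c)) := mul_nonneg a1 (by linarith)
  have u2 : 0 ≤ (1 - P1 + P2 - P3) * (5 / 2 - (1 - a + b - c)) := mul_nonneg a2 (by linarith)
  have u3 : 0 ≤ (1 - P1 - P2 + P3) * (5 / 2 - (1 - a - b + c)) := mul_nonneg a3 (by linarith)
  constructor <;> nlinarith [l0, l1, l2, l3, u0, u1, u2, u3]

theorem Uz_mul_ge {z : ℝ} (h1 : 1 / 2 ≤ 1 + z) (h2 : 1 + z ≤ 5 / 2) : 1 ≤ Uzc2 z * (1 + z) := by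
  have e : Uzc2 z * (1 + z) = 1 + z ^ 4 * ((2 * (1 + z) - 1) * (1 - (2 / 5) * (1 + z))) := by
    simp only [Uzc2]; ring
  rw [e]
  have : 0 ≤ z ^ 4 * ((2 * (1 + z) - 1) * (1 - (2 / 5) * (1 + z))) :=
    mul_nonneg (by positivity) (mul_nonneg (by linarith) (by linarith))
  linarith

theorem dd_nonneg (P1 P2 P3 a b c : ℝ) : 0 ≤ dd P1 P2 P3 a b c := by
  unfold dd; positivity

theorem Q_le {P1 P2 P3 a b c : ℝ} (hP : Apos P1 P2 P3) (hG : Good a b c) :
    nn P1 P2 P3 a b c / ww P1 P2 P3 a b c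
      ≤ ww P1 P2 P3 a b c * (1 + inI P1 P2 P3) + 2 * pd P1 P2 P3 a b c
        + dd P1 P2 P3 a b c * Uzc2 (zz P1 P2 P3 a b c) := by
  obtain ⟨h1, h2⟩ := ww_bounds hP hG
  have hw : 0 < ww P1 P2 P3 a b c := by linarith
  have hU := Uz_mul_ge (z := zz P1 P2 P3 a b c) h1 h2
  rw [div_le_iff₀ hw, nn_eq]
  have h3 := mul_le_mul_of_nonneg_left hU (dd_nonneg P1 P2 P3 a b c)
  have e : ww P1 P2 P3 a b c = 1 + zz P1 P2 P3 a b c := rfl
  rw [← e] at h3
  nlinarith [h3]

/-- Orbit monotonicity. -/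
theorem orb_le (f g : ℝ → ℝ → ℝ → ℝ) (a b c : ℝ) (hG : Good a b c)
    (h : ∀ a b c, Good a b c → f a b c ≤ g a b c) : orb f a b c ≤ orb g a b c := by
  obtain ⟨b0, b1, b2, b3⟩ := hG
  have key : ∀ x y z : ℝ, 1 / 2 ≤ 1 + x + y + z → 1 / 2 ≤ 1 + x - y - z →
      1 / 2 ≤ 1 - x + y - z → 1 / 2 ≤ 1 - x - y + z → f x y z ≤ g x y z :=
    fun x y z h0 h1 h2 h3 => h x y z ⟨h0, h1, h2, h3⟩
  unfold orb
  have t1 := key a b c (by linarith) (by linarith) (by linarith) (by linarith)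
  have t2 := key a (-b) (-c) (by linarith) (by linarith) (by linarith) (by linarith)
  have t3 := key (-a) b (-c) (by linarith) (by linarith) (by linarith) (by linarith)
  have t4 := key (-a) (-b) c (by linarith) (by linarith) (by linarith) (by linarith)
  have t5 := key a c b (by linarith) (by linarith) (by linarith) (by linarith)
  have t6 := key a (-c) (-b) (by linarith) (by linarith) (by linarith) (by linarith)
  have t7 := key (-a) c (-b) (by linarith) (by linarith) (by linarith) (by linarith)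
  have t8 := key (-a) (-c) b (by linarith) (by linarith) (by linarith) (by linarith)
  have t9 := key b a c (by linarith) (by linarith) (by linarith) (by linarith)
  have t10 := key b (-a) (-c) (by linarith) (by linarith) (by linarith) (by linarith)
  have t11 := key (-b) a (-c) (by linarith) (by linarith) (by linarith) (by linarith)
  have t12 := key (-b) (-a) c (by linarith) (by linarith) (by linarith) (by linarith)
  have t13 := key b c a (by linarith) (by linarith) (by linarith) (by linarith)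
  have t14 := key b (-c) (-a) (by linarith) (by linarith) (by linarith) (by linarith)
  have t15 := key (-b) c (-a) (by linarith) (by linarith) (by linarith) (by linarith)
  have t16 := key (-b) (-c) a (by linarith) (by linarith) (by linarith) (by linarith)
  have t17 := key c a b (by linarith) (by linarith) (by linarith) (by linarith)
  have t18 := key c (-a) (-b) (by linarith) (by linarith) (by linarith) (by linarith)
  have t19 := key (-c) a (-b) (by linarith) (by linarith) (by linarith) (by linarith)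
  have t20 := key (-c) (-a) b (by linarith) (by linarith) (by linarith) (by linarith)
  have t21 := key c b a (by linarith) (by linarith) (by linarith) (by linarith)
  have t22 := key c (-b) (-a) (by linarith) (by linarith) (by linarith) (by linarith)
  have t23 := key (-c) b (-a) (by linarith) (by linarith) (by linarith) (by linarith)
  have t24 := key (-c) (-b) a (by linarith) (by linarith) (by linarith) (by linarith)
  linarith

theorem orb_ww (P1 P2 P3 a b c : ℝ) :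
    orb (fun a b c => ww P1 P2 P3 a b c) a b c = 24 := by
  simp only [orb, ww, zz]
  ring

theorem orb_pd (P1 P2 P3 a b c : ℝ) :
    orb (fun a b c => pd P1 P2 P3 a b c) a b c = 0 := by
  simp only [orb, pd, del1, del2, del3]
  ring

/-- The orbit sum of the upper bound. -/
theorem orb_g (P1 P2 P3 a b c k : ℝ) :
    orb (fun a b c => ww P1 P2 P3 a b c * k + 2 * pd P1 P2 P3 a b c
      + dd P1 P2 P3 a b c * Uzc2 (zz P1 P2 P3 a b c)) a b c
    = 24 * k + 24 * Tsumc2 (inI P1 P2 P3) (inY P1 P2 P3) (inE P1 P2 P3)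
        (inI a b c) (inY a b c) (inE a b c) := by
  have h1 := orb_ww P1 P2 P3 a b c
  have h2 := orb_pd P1 P2 P3 a b c
  have h3 := orb_Uc2 P1 P2 P3 a b c
  rw [← h3]
  have e : orb (fun a b c => ww P1 P2 P3 a b c * k + 2 * pd P1 P2 P3 a b c
      + dd P1 P2 P3 a b c * Uzc2 (zz P1 P2 P3 a b c)) a b c
      = k * orb (fun a b c => ww P1 P2 P3 a b c) a b c
        + 2 * orb (fun a b c => pd P1 P2 P3 a b c) a b c
        + orb (fun a b c => dd P1 P2 P3 a b c * Uzc2 (zz P1 P2 P3 a b c)) a b c := by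
    simp only [orb]
    ring
  rw [e, h1, h2]
  ring

/-- The certified polynomial inequality in Fourier coordinates. -/
theorem cert_fourier {P1 P2 P3 a b c : ℝ} (hP : Apos P1 P2 P3) (hG : Good a b c) :
    0 ≤ Dtilc2 (inI P1 P2 P3) (inY P1 P2 P3) (inE P1 P2 P3) (inI a b c) (inY a b c) (inE a b c)
      - (1 / 100) * inI P1 P2 P3 * (inI a b c) ^ 2 := by
  obtain ⟨a0, a1, a2, a3⟩ := hP
  obtain ⟨b0, b1, b2, b3⟩ := hG
  have key := c2_all ![(1 + P1 + P2 + P3) / 4, (1 + P1 - P2 - P3) / 4, (1 - P1 + P2 - P3) / 4,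
      (1 - P1 - P2 + P3) / 4]
    ![(1 + 2 * a + 2 * b + 2 * c) / 4, (1 + 2 * a - 2 * b - 2 * c) / 4,
      (1 - 2 * a + 2 * b - 2 * c) / 4, (1 - 2 * a - 2 * b + 2 * c) / 4]
    (by
      intro i
      fin_cases i
      · simpa using (by linarith : 0 ≤ (1 + P1 + P2 + P3) / 4)
      · simpa using (by linarith : 0 ≤ (1 + P1 - P2 - P3) / 4)
      · simpa using (by linarith : 0 ≤ (1 - P1 + P2 - P3) / 4)
      · simpa using (by linarith : 0 ≤ (1 - P1 - P2 + P3) / 4))
    (by simp [Fin.sum_univ_four]; ring)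
    (by
      intro i
      fin_cases i
      · simpa using (by linarith : 0 ≤ (1 + 2 * a + 2 * b + 2 * c) / 4)
      · simpa using (by linarith : 0 ≤ (1 + 2 * a - 2 * b - 2 * c) / 4)
      · simpa using (by linarith : 0 ≤ (1 - 2 * a + 2 * b - 2 * c) / 4)
      · simpa using (by linarith : 0 ≤ (1 - 2 * a - 2 * b + 2 * c) / 4))
    (by simp [Fin.sum_univ_four]; ring)
  have e1 : fo1 ![(1 + P1 + P2 + P3) / 4, (1 + P1 - P2 - P3) / 4, (1 - P1 + P2 - P3) / 4,
      (1 - P1 - P2 + P3) / 4] = P1 := by simp [fo1]; ring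
  have e2 : fo2 ![(1 + P1 + P2 + P3) / 4, (1 + P1 - P2 - P3) / 4, (1 - P1 + P2 - P3) / 4,
      (1 - P1 - P2 + P3) / 4] = P2 := by simp [fo2]; ring
  have e3 : fo3 ![(1 + P1 + P2 + P3) / 4, (1 + P1 - P2 - P3) / 4, (1 - P1 + P2 - P3) / 4,
      (1 - P1 - P2 + P3) / 4] = P3 := by simp [fo3]; ring
  have f1 : fo1 ![(1 + 2 * a + 2 * b + 2 * c) / 4, (1 + 2 * a - 2 * b - 2 * c) / 4,
      (1 - 2 * a + 2 * b - 2 * c) / 4, (1 - 2 * a - 2 * b + 2 * c) / 4] = 2 * a := by
    simp [fo1]; ring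
  have f2 : fo2 ![(1 + 2 * a + 2 * b + 2 * c) / 4, (1 + 2 * a - 2 * b - 2 * c) / 4,
      (1 - 2 * a + 2 * b - 2 * c) / 4, (1 - 2 * a - 2 * b + 2 * c) / 4] = 2 * b := by
    simp [fo2]; ring
  have f3 : fo3 ![(1 + 2 * a + 2 * b + 2 * c) / 4, (1 + 2 * a - 2 * b - 2 * c) / 4,
      (1 - 2 * a + 2 * b - 2 * c) / 4, (1 - 2 * a - 2 * b + 2 * c) / 4] = 2 * c := by
    simp [fo3]; ring
  rw [e1, e2, e3, f1, f2, f3] at key
  have g1 : (1 / 4) * inI (2 * a) (2 * b) (2 * c) = inI a b c := by simp only [inI]; ring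
  have g2 : (1 / 8) * inY (2 * a) (2 * b) (2 * c) = inY a b c := by simp only [inY]; ring
  have g3 : (1 / 16) * inE (2 * a) (2 * b) (2 * c) = inE a b c := by simp only [inE]; ring
  rw [g1, g2, g3] at key
  exact key

/-- The main bound on the orbit sum. -/
theorem pair_orb {P1 P2 P3 a b c : ℝ} (hP : Apos P1 P2 P3) (hG : Good a b c) :
    orb (fun a b c => nn P1 P2 P3 a b c / ww P1 P2 P3 a b c) a b c
      ≤ 24 * (1 + inI P1 P2 P3 + inI a b c + inI a b c * cInvc2 (inI P1 P2 P3) (inY P1 P2 P3) (inE P1 P2 P3)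
        + inI P1 P2 P3 * ((1 / 8) * cInvc2 (4 * inI a b c) (8 * inY a b c) (16 * inE a b c))
        - (1 / 100) * inI P1 P2 P3 * (inI a b c) ^ 2) := by
  have h1 := orb_le _ (fun a b c => ww P1 P2 P3 a b c * (1 + inI P1 P2 P3) + 2 * pd P1 P2 P3 a b c
      + dd P1 P2 P3 a b c * Uzc2 (zz P1 P2 P3 a b c)) a b c hG (fun x y z hxyz => Q_le hP hxyz)
  rw [orb_g] at h1
  have h2 := cert_fourier hP hG
  simp only [Dtilc2] at h2
  linarith

end Vale.Agent.Lib.P154.Q4
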