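import Vale.Agent.Lib.P154.Defs
import Vale.Agent.Lib.P154.Q4.Jeff4
import Vale.Agent.Lib.P154.Q4.Rec4

/-!
The likelihoods of the tree on four letters, level by level.
-/

noncomputable section

open Finset Filter Topology

namespace Vale.Agent.Lib.P154.Q4

/-- The likelihood family at level `n`. -/
def tlev (d : ℕ) (lam : ℝ) (n : ℕ) : LeafSpins d 4 n → Fin 4 → ℝ :=
  fun τ i => leafLik d 4 lam n i τ

theorem sum_potts (lam : ℝ) (i : Fin 4) (v : Fin 4 → ℝ) :
    ∑ j : Fin 4, potts 4 lam i j * v j = lam * v i + (1 - lam) * nN v := by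
  unfold potts nN tot4
  simp only [Fin.sum_univ_four]
  push_cast
  fin_cases i <;> simp <;> ring

theorem tlev_succ (d : ℕ) (lam : ℝ) (n : ℕ) :
    tlev d lam (n + 1) = powS d (chan lam (tlev d lam n)) := by
  funext τ i
  unfold tlev powS chan chan4
  change ∏ c : Fin d, ∑ j : Fin 4, potts 4 lam i j * leafLik d 4 lam n j (τ c) = _
  refine Finset.prod_congr rfl fun c _ => ?_
  rw [sum_potts]

/-- A point mass. -/
def vert (τ : Fin 4) : Fin 4 → ℝ := fun i => if i = τ then 1 else 0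

theorem tot4_vert (τ : Fin 4) : tot4 (vert τ) = 1 := by
  fin_cases τ <;> simp [tot4, vert]

theorem nN_vert (τ : Fin 4) : nN (vert τ) = 1 / 4 := by
  unfold nN; rw [tot4_vert]

theorem cI_vert (τ : Fin 4) : cI (vert τ) = 3 := by
  unfold cI inI fA fB fC
  rw [tot4_vert]
  fin_cases τ <;> simp [vert] <;> norm_num

theorem cY_vert (τ : Fin 4) : cY (vert τ) = 1 := by
  unfold cY inY fA fB fC
  rw [tot4_vert]
  fin_cases τ <;> simp [vert] <;> norm_num

theorem cE_vert (τ : Fin 4) : cE (vert τ) = 3 := by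
  unfold cE inE fA fB fC
  rw [tot4_vert]
  fin_cases τ <;> simp [vert] <;> norm_num

theorem tlev_zero_wsig (d : ℕ) (lam : ℝ) : WSig (tlev d lam 0) where
  nonneg := fun t i => by
    have key : ∀ (t : Fin 4), (0 : ℝ) ≤ (if i = t then 1 else 0) := by
      intro t
      split_ifs <;> norm_num
    exact key t
  Npos := fun t => by
    have h : tot4 (tlev d lam 0 t) = 1 := tot4_vert t
    rw [h]
    norm_num
  tot := fun i => by
    change ∑ t : Fin 4, (if i = t then (1 : ℝ) else 0) = 1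
    simp
  sym := fun σ => by
    refine ⟨σ.symm, fun t i => ?_⟩
    have key : ∀ (t : Fin 4), (if i = σ.symm t then (1 : ℝ) else 0) = (if σ i = t then (1 : ℝ) else 0) := by
      intro t
      have : i = σ.symm t ↔ σ i = t := by
        rw [Equiv.eq_symm_apply]
      simp only [this]
    exact key t

/-- The correction polynomial at the vertex is nonpositive. -/
theorem cInv_vertex {lam : ℝ} (h0 : 0 ≤ lam) (h1 : lam ≤ 1 / 2) :
    cInvc2 (4 * (lam ^ 2 * 3)) (8 * (lam ^ 3 * 1)) (16 * (lam ^ 4 * 3)) ≤ 0 := by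
  have e : cInvc2 (4 * (lam ^ 2 * 3)) (8 * (lam ^ 3 * 1)) (16 * (lam ^ 4 * 3))
      = - (lam ^ 3 * ((32) * (2 * lam) ^ 0 * (1 - 2 * lam) ^ 6 + (352/3) * (2 * lam) ^ 1 * (1 - 2 * lam) ^ 5 + (800/3) * (2 * lam) ^ 2 * (1 - 2 * lam) ^ 4 + (17824/81) * (2 * lam) ^ 3 * (1 - 2 * lam) ^ 3 + (12064/81) * (2 * lam) ^ 4 * (1 - 2 * lam) ^ 2 + (18080/567) * (2 * lam) ^ 5 * (1 - 2 * lam) ^ 1 + (1504/567) * (2 * lam) ^ 6 * (1 - 2 * lam) ^ 0)) := by
    simp only [cInvc2]
    ring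
  rw [e]
  have h2 : 0 ≤ 1 - 2 * lam := by linarith
  have : 0 ≤ lam ^ 3 * ((32) * (2 * lam) ^ 0 * (1 - 2 * lam) ^ 6 + (352/3) * (2 * lam) ^ 1 * (1 - 2 * lam) ^ 5 + (800/3) * (2 * lam) ^ 2 * (1 - 2 * lam) ^ 4 + (17824/81) * (2 * lam) ^ 3 * (1 - 2 * lam) ^ 3 + (12064/81) * (2 * lam) ^ 4 * (1 - 2 * lam) ^ 2 + (18080/567) * (2 * lam) ^ 5 * (1 - 2 * lam) ^ 1 + (1504/567) * (2 * lam) ^ 6 * (1 - 2 * lam) ^ 0) := by
    positivity
  linarith

theorem ee_level_zero (d : ℕ) {lam : ℝ} (h0 : 0 ≤ lam) (h1 : lam ≤ 1 / 2) :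
    ee (chan lam (tlev d lam 0)) ≤ 0 := by
  have e : ee (chan lam (tlev d lam 0))
      = ∑ τ : Fin 4, nN (chan4 lam (vert τ)) * ce (chan4 lam (vert τ)) := rfl
  rw [e]
  refine Finset.sum_nonpos fun t _ => ?_
  rw [nN_chan, nN_vert]
  unfold ce
  rw [cI_chan, cY_chan, cE_chan, cI_vert, cY_vert, cE_vert]
  have := cInv_vertex h0 h1
  nlinarith

theorem xx_level_zero (d : ℕ) (lam : ℝ) : xx (tlev d lam 0) = 3 := by
  rw [xx_eq (tlev_zero_wsig d lam)]
  change ∑ t : Fin 4, nN (vert t) * cI (vert t) = 3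
  simp only [nN_vert, cI_vert]
  simp

theorem Jt_vert (lam : ℝ) (hl : lam < 1) (hl0 : 0 ≤ lam) (τ : Fin 4) :
    Jt (chan4 lam (vert τ)) = (3 * lam / 16) * (Real.log (1 + 3 * lam) - Real.log (1 - lam)) := by
  have hval : ∀ i, chan4 lam (vert τ) i = if i = τ then (1 + 3 * lam) / 4 else (1 - lam) / 4 := by
    intro i
    unfold chan4
    rw [nN_vert]
    unfold vert
    split_ifs <;> ring
  have h1 : (1 + 3 * lam) ≠ 0 := by linarith
  have h2 : (1 - lam) ≠ 0 := by linarith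
  have l1 : Real.log ((1 + 3 * lam) / 4) = Real.log (1 + 3 * lam) - Real.log 4 :=
    Real.log_div h1 (by norm_num)
  have l2 : Real.log ((1 - lam) / 4) = Real.log (1 - lam) - Real.log 4 :=
    Real.log_div h2 (by norm_num)
  unfold Jt
  rw [nN_chan, nN_vert]
  simp only [hval]
  rw [Fin.sum_univ_four]
  fin_cases τ <;> simp <;> rw [l1, l2] <;> ring

theorem bj_level_zero (d : ℕ) {lam : ℝ} (h0 : 0 ≤ lam) (h1 : lam ≤ 1 / 2) :
    bj (chan lam (tlev d lam 0)) ≤ 3 * lam ^ 2 := by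
  have e : bj (chan lam (tlev d lam 0)) = ∑ τ : Fin 4, Jt (chan4 lam (vert τ)) := rfl
  rw [e]
  simp only [Jt_vert lam (by linarith) h0]
  simp only [Finset.sum_const, Finset.card_univ, Fintype.card_fin, nsmul_eq_mul]
  have := log_vertex h0 h1
  have h2 : lam * (Real.log (1 + 3 * lam) - Real.log (1 - lam)) ≤ lam * (4 * lam) :=
    mul_le_mul_of_nonneg_left this h0
  push_cast
  nlinarith

end Vale.Agent.Lib.P154.Q4
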